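import Vale.Agent.P202.Deep

namespace Vale.Agent.P202

open Filter Topology IsLocalRing TensorProduct

section
variable {R S : Type*} [CommRing R] [CommRing S] [IsLocalRing R] [IsLocalRing S]
  [IsNoetherianRing R] [Algebra R S]

/-- lifts of a basis of `m ^ k / m ^ (k + 1)` -/
theorem exists_liftk (R : Type*) [CommRing R] [IsLocalRing R] [IsNoetherianRing R] (k : ℕ) :
    ∃ (s : ℕ) (a : Fin s → R), (∀ l, a l ∈ maximalIdeal R ^ k) ∧
      (maximalIdeal R ^ k ≤ Ideal.span (Set.range a) ⊔ (maximalIdeal R) ^ (k + 1)) ∧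
      (∀ r : Fin s → R, ∑ l, a l * r l ∈ (maximalIdeal R) ^ (k + 1) →
        ∀ l, r l ∈ maximalIdeal R) := by
  classical
  have hex : ∃ s : ℕ, ∃ a : Fin s → R, (∀ l, a l ∈ maximalIdeal R ^ k) ∧
      (maximalIdeal R ^ k ≤ Ideal.span (Set.range a) ⊔ (maximalIdeal R) ^ (k + 1)) := by
    obtain ⟨s, a, ha⟩ := Submodule.fg_iff_exists_fin_generating_family.mp
      (IsNoetherian.noetherian (maximalIdeal R ^ k : Ideal R))
    refine ⟨s, a, fun l => ?_, ?_⟩
    · rw [← ha]; exact Submodule.subset_span ⟨l, rfl⟩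
    · exact le_of_eq_of_le ha.symm le_sup_left
  obtain ⟨a, ha1, ha2⟩ := Nat.find_spec hex
  refine ⟨Nat.find hex, a, ha1, ha2, fun r hr l0 => ?_⟩
  by_contra hcon
  have hu : IsUnit (r l0) := by
    by_contra h
    exact hcon ((mem_maximalIdeal _).mpr (mem_nonunits_iff.mpr h))
  obtain ⟨u, hu⟩ := hu
  have hmin := fun s hs => Nat.find_min (H := hex) (m := s) hs
  revert hmin
  generalize Nat.find hex = s at *
  intro hmin
  obtain ⟨s', rfl⟩ : ∃ s', s = s' + 1 := by
    refine ⟨s - 1, ?_⟩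
    have := l0.pos
    omega
  refine hmin s' (by omega) ⟨fun i => a (l0.succAbove i), fun i => ha1 _, ?_⟩
  have hspan : a l0 ∈ Ideal.span (Set.range fun i => a (l0.succAbove i)) ⊔
      (maximalIdeal R) ^ (k + 1) := by
    rw [Fin.sum_univ_succAbove _ l0] at hr
    have e : a l0 = (↑u⁻¹ : R) * (a l0 * r l0 + ∑ i, a (l0.succAbove i) * r (l0.succAbove i)) -
        ∑ i, ((↑u⁻¹ : R) * r (l0.succAbove i)) * a (l0.succAbove i) := by
      rw [mul_add, Finset.mul_sum]
      have e1 : (↑u⁻¹ : R) * (a l0 * r l0) = a l0 := by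
        rw [← hu, mul_comm (a l0), ← mul_assoc, Units.inv_mul, one_mul]
      rw [e1]
      have e2 : ∑ i, (↑u⁻¹ : R) * (a (l0.succAbove i) * r (l0.succAbove i)) =
          ∑ i, ((↑u⁻¹ : R) * r (l0.succAbove i)) * a (l0.succAbove i) :=
        Finset.sum_congr rfl fun i _ => by ring
      rw [e2]; ring
    rw [e]
    refine Ideal.sub_mem _ (Ideal.mem_sup_right (Ideal.mul_mem_left _ _ hr))
      (Ideal.mem_sup_left (Ideal.sum_mem _ fun i _ => Ideal.mul_mem_left _ _
        (Ideal.subset_span ⟨i, rfl⟩)))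
  refine ha2.trans (sup_le (Ideal.span_le.mpr ?_) le_sup_right)
  rintro _ ⟨l, rfl⟩
  rcases eq_or_ne l l0 with h | h
  · subst h; exact hspan
  · obtain ⟨i, rfl⟩ := Fin.exists_succAbove_eq h
    exact Ideal.mem_sup_left (Ideal.subset_span ⟨i, rfl⟩)

/-- flatness -/
theorem flat_coefk [Module.Flat R S] (k : ℕ) {s : ℕ} {a : Fin s → R}
    (ha : ∀ r : Fin s → R, ∑ l, a l * r l ∈ (maximalIdeal R) ^ (k + 1) → ∀ l, r l ∈ maximalIdeal R)
    (f : Fin s → S)
    (h : ∑ l, a l • f l ∈ ((maximalIdeal R) ^ (k + 1)).map (algebraMap R S)) (l : Fin s) :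
    f l ∈ (maximalIdeal R).map (algebraMap R S) := by
  rw [Ideal.map, Ideal.span, Submodule.mem_span_set'] at h
  obtain ⟨n, g, c, hc⟩ := h
  choose d hd hd' using fun p => (c p).2
  have hrel : ∑ i, (Sum.elim a (fun p => - d p) : Fin s ⊕ Fin n → R) i •
      (Sum.elim f g : Fin s ⊕ Fin n → S) i = 0 := by
    rw [Fintype.sum_sum_type]
    simp only [Sum.elim_inl, Sum.elim_inr]
    rw [← hc]
    rw [← Finset.sum_add_distrib]
    refine Finset.sum_eq_zero fun p _ => ?_
    rw [smul_eq_mul, Algebra.smul_def, map_neg, ← hd' p]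
    ring
  obtain ⟨k', A, y, h1, h2⟩ := Module.Flat.isTrivialRelation_of_sum_smul_eq_zero
    (R := R) (M := S) (f := Sum.elim a (fun p => - d p)) (x := Sum.elim f g) hrel
  have h3 : ∀ j, ∀ l, A (Sum.inl l) j ∈ maximalIdeal R := by
    intro j
    apply ha (fun l => A (Sum.inl l) j)
    have := h2 j
    rw [Fintype.sum_sum_type] at this
    simp only [Sum.elim_inl, Sum.elim_inr] at this
    rw [add_eq_zero_iff_eq_neg] at this
    rw [this]
    refine Ideal.neg_mem_iff _ |>.mpr ?_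
    refine Ideal.sum_mem _ fun p _ => Ideal.mul_mem_right _ _ ?_
    exact (Ideal.neg_mem_iff _).mpr (hd p)
  have h4 := h1 (Sum.inl l)
  simp only [Sum.elim_inl] at h4
  rw [h4]
  refine Ideal.sum_mem _ fun j _ => ?_
  rw [Algebra.smul_def]
  exact Ideal.mul_mem_right _ _ (Ideal.mem_map_of_mem _ (h3 j l))

omit [IsLocalRing S] [IsNoetherianRing R] in
theorem exists_coefk (k : ℕ) {s : ℕ} {a : Fin s → R}
    (hg : maximalIdeal R ^ k ≤ Ideal.span (Set.range a) ⊔ (maximalIdeal R) ^ (k + 1)) (w : S)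
    (hw : w ∈ (maximalIdeal R ^ k).map (algebraMap R S)) :
    ∃ f : Fin s → S, w - ∑ l, a l • f l ∈ ((maximalIdeal R) ^ (k + 1)).map (algebraMap R S) := by
  have h1 := Ideal.map_mono (f := algebraMap R S) hg hw
  rw [Ideal.map_sup, Ideal.map_span, Submodule.mem_sup] at h1
  obtain ⟨u, hu, v, hv, huv⟩ := h1
  rw [← Set.range_comp, Ideal.mem_span_range_iff_exists_fun] at hu
  obtain ⟨c, hc⟩ := hu
  refine ⟨c, ?_⟩
  have : w - ∑ l, a l • c l = v := by
    rw [← huv, ← hc]
    have : ∑ l, a l • c l = ∑ l, c l * (⇑(algebraMap R S) ∘ a) l := by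
      refine Finset.sum_congr rfl fun l _ => ?_
      rw [Algebra.smul_def, mul_comm]
      rfl
    rw [this]
    ring
  rw [this]
  exact hv

end

section
variable {R S : Type*} [CommRing R] [CommRing S] [IsLocalRing R] [IsLocalRing S]
  [IsNoetherianRing R] [IsNoetherianRing S] [Algebra R S] [IsLocalHom (algebraMap R S)]
  [Module.Flat R S]

theorem deep_stepk (k₀ : ℕ) {s : ℕ} {a : Fin s → R}
    (ha3 : ∀ r : Fin s → R, ∑ l, a l * r l ∈ (maximalIdeal R) ^ (k₀ + 1) → ∀ l, r l ∈ maximalIdeal R)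
    (ha2 : maximalIdeal R ^ k₀ ≤ Ideal.span (Set.range a) ⊔ (maximalIdeal R) ^ (k₀ + 1))
    {x₁ x₂ : S} {c : ℕ} (h1 : x₁ ∈ maximalIdeal S) (h2 : x₂ ∈ maximalIdeal S)
    (hreg : RegularBelow ((maximalIdeal R).map (algebraMap R S)) x₁ x₂ c)
    (A : ℕ) (hA : maximalIdeal S ^ A ≤ (maximalIdeal R ^ k₀).map (algebraMap R S)) :
    ∀ j, j + 1 ≤ c → j ≤ A → ∀ y ∈ maximalIdeal S ^ A, ∀ f : Fin s → S,
      y - ∑ l, a l • f l ∈ ((maximalIdeal R) ^ (k₀ + 1)).map (algebraMap R S) →
      ∀ l, f l ∈ maximalIdeal S ^ j ⊔ (maximalIdeal R).map (algebraMap R S) := by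
  set M := (maximalIdeal R).map (algebraMap R S) with hM
  set M2 := ((maximalIdeal R) ^ (k₀ + 1)).map (algebraMap R S) with hM2
  -- comparison of coefficients
  have cmp : ∀ (p q : S) (y y' : S) (f f' : Fin s → S), p * y = q * y' →
      y - ∑ l, a l • f l ∈ M2 → y' - ∑ l, a l • f' l ∈ M2 →
      ∀ l, p * f l - q * f' l ∈ M := by
    intro p q y y' f f' hpq hy hy' l
    refine flat_coefk k₀ ha3 (fun l => p * f l - q * f' l) ?_ l
    have e : ∑ l, a l • (p * f l - q * f' l) =
        q * (y' - ∑ l, a l • f' l) - p * (y - ∑ l, a l • f l) := by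
      have : ∑ l, a l • (p * f l - q * f' l) =
          p * ∑ l, a l • f l - q * ∑ l, a l • f' l := by
        rw [Finset.mul_sum, Finset.mul_sum, ← Finset.sum_sub_distrib]
        refine Finset.sum_congr rfl fun l _ => ?_
        rw [smul_sub, mul_smul_comm, mul_smul_comm]
      rw [this]
      linear_combination hpq
    rw [e]
    exact Ideal.sub_mem _ (Ideal.mul_mem_left _ _ hy') (Ideal.mul_mem_left _ _ hy)
  intro j
  induction j with
  | zero =>
    intro _ _ y _ f _ l
    simp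
  | succ j ih =>
    intro hjc hjA
    have C := ih (by omega) (by omega)
    -- step 2
    have E : ∀ i ≤ j + 1, ∀ N ∈ maximalIdeal S ^ (A - (j + 1 - i)), ∀ f : Fin s → S,
        x₁ ^ (j + 1 - i) * N - ∑ l, a l • f l ∈ M2 →
        ∀ l, f l ∈ maximalIdeal S ^ (j + 1) ⊔ M := by
      intro i
      induction i with
      | zero =>
        intro _ N hN f hf l
        rw [Nat.sub_zero] at hN hf
        have hmem : ∀ k, k ≤ j + 1 → x₁ ^ (j + 1 - k) * x₂ ^ k * N ∈ maximalIdeal S ^ A := by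
          intro k hk
          have e : A = (j + 1 - k) + k + (A - (j + 1)) := by omega
          rw [e, pow_add, pow_add]
          refine Ideal.mul_mem_mul (Ideal.mul_mem_mul (Ideal.pow_mem_pow h1 _)
            (Ideal.pow_mem_pow h2 _)) ?_
          exact hN
        have hex : ∀ k, ∃ g : Fin s → S, k ≤ j + 1 →
            x₁ ^ (j + 1 - k) * x₂ ^ k * N - ∑ l, a l • g l ∈ M2 := by
          intro k
          by_cases hk : k ≤ j + 1
          · obtain ⟨g, hg⟩ := exists_coefk (S := S) k₀ ha2 _ (hA (hmem k hk))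
            exact ⟨g, fun _ => hg⟩
          · exact ⟨0, fun h => absurd h hk⟩
        choose g hg using hex
        have h3 : g 0 l ∈ maximalIdeal S ^ (j + 1) ⊔ M := by
          refine chain h1 h2 hreg j (by omega) (fun k => g k l)
            (fun k hk => C _ (hmem k hk) (g k) (hg k hk) l) fun k hk => ?_
          refine Ideal.mem_sup_right ?_
          refine cmp x₂ x₁ _ _ (g k) (g (k + 1)) ?_ (hg k (by omega)) (hg (k + 1) (by omega)) l
          have e : j + 1 - k = (j + 1 - (k + 1)) + 1 := by omega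
          rw [e, pow_succ, pow_succ]
          ring
        have h4 := cmp 1 1 _ _ f (g 0) (by rw [Nat.sub_zero, pow_zero]; ring) hf
          (hg 0 (by omega)) l
        have e : f l = (1 * f l - 1 * g 0 l) + g 0 l := by ring
        rw [e]
        exact Ideal.add_mem _ (Ideal.mem_sup_right h4) h3
      | succ i ihi =>
        intro hi N hN
        have ih' := ihi (by omega)
        have e1 : j + 1 - i = (j + 1 - (i + 1)) + 1 := by omega
        set q := j + 1 - (i + 1) with hq
        have e2 : A - q = (A - (j + 1 - i)) + 1 := by omega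
        rw [e2, pow_succ', ← smul_eq_mul] at hN
        have hmemq : ∀ N₀ ∈ maximalIdeal S ^ (A - q), x₁ ^ q * N₀ ∈ maximalIdeal S ^ A := by
          intro N₀ hN₀
          have e : A = q + (A - q) := by omega
          rw [e, pow_add]
          refine Ideal.mul_mem_mul (Ideal.pow_mem_pow h1 _) ?_
          exact hN₀
        suffices hsuf : N ∈ maximalIdeal S ^ (A - q) ∧ ∀ f : Fin s → S,
            x₁ ^ q * N - ∑ l, a l • f l ∈ M2 →
            ∀ l, f l ∈ maximalIdeal S ^ (j + 1) ⊔ M from hsuf.2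
        refine Submodule.smul_induction_on
          (p := fun N => N ∈ maximalIdeal S ^ (A - q) ∧ ∀ f : Fin s → S,
            x₁ ^ q * N - ∑ l, a l • f l ∈ M2 →
            ∀ l, f l ∈ maximalIdeal S ^ (j + 1) ⊔ M) hN ?_ ?_
        · intro z hz N' hN'
          refine ⟨?_, ?_⟩
          · rw [e2, pow_succ', ← smul_eq_mul]
            exact Submodule.smul_mem_smul hz hN'
          intro f hf l
          have hmem : x₁ ^ q * (z • N') ∈ maximalIdeal S ^ A := by
            have e : A = q + (1 + (A - (j + 1 - i))) := by omega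
            rw [e, pow_add, pow_add, pow_one]
            exact Ideal.mul_mem_mul (Ideal.pow_mem_pow h1 _) (Ideal.mul_mem_mul hz hN')
          have hmem' : x₁ ^ (j + 1 - i) * N' ∈ maximalIdeal S ^ A := by
            have e : A = (j + 1 - i) + (A - (j + 1 - i)) := by omega
            rw [e, pow_add]
            refine Ideal.mul_mem_mul ?_ ?_
            · exact Ideal.pow_mem_pow h1 _
            · exact hN'
          obtain ⟨f', hf'⟩ := exists_coefk (S := S) k₀ ha2 _ (hA hmem')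
          have h3 := ih' N' hN' f' hf' l
          have h4 := cmp x₁ z _ _ f f' (by rw [e1, pow_succ, smul_eq_mul]; ring) hf hf' l
          refine (hreg j (by omega)).1 (f l) (C _ hmem f hf l) ?_
          have e : x₁ * f l = (x₁ * f l - z * f' l) + z * f' l := by ring
          rw [e]
          exact Ideal.add_mem _ (Ideal.mem_sup_right h4) (mul_ord hz h3)
        · intro N₁ N₂ ih1 ih2
          refine ⟨Ideal.add_mem _ ih1.1 ih2.1, ?_⟩
          intro f hf l
          obtain ⟨g₁, hg₁⟩ := exists_coefk (S := S) k₀ ha2 _ (hA (hmemq N₁ ih1.1))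
          obtain ⟨g₂, hg₂⟩ := exists_coefk (S := S) k₀ ha2 _ (hA (hmemq N₂ ih2.1))
          have hg : x₁ ^ q * (N₁ + N₂) - ∑ l, a l • (g₁ l + g₂ l) ∈ M2 := by
            have e : x₁ ^ q * (N₁ + N₂) - ∑ l, a l • (g₁ l + g₂ l) =
                (x₁ ^ q * N₁ - ∑ l, a l • g₁ l) + (x₁ ^ q * N₂ - ∑ l, a l • g₂ l) := by
              have : ∑ l, a l • (g₁ l + g₂ l) = ∑ l, a l • g₁ l + ∑ l, a l • g₂ l := by
                rw [← Finset.sum_add_distrib]
                exact Finset.sum_congr rfl fun l _ => smul_add _ _ _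
              rw [this]; ring
            rw [e]
            exact Ideal.add_mem _ hg₁ hg₂
          have h3 := cmp 1 1 _ _ f (fun l => g₁ l + g₂ l) rfl hf hg l
          have e : f l = (1 * f l - 1 * (g₁ l + g₂ l)) + (g₁ l + g₂ l) := by ring
          rw [e]
          exact Ideal.add_mem _ (Ideal.mem_sup_right h3)
            (Ideal.add_mem _ (ih1.2 g₁ hg₁ l) (ih2.2 g₂ hg₂ l))
    intro y hy f hf l
    exact E (j + 1) le_rfl y (by simpa using hy) f (by simpa using hf) l

theorem deep_lek (k₀ : ℕ) {x₁ x₂ : S} {c : ℕ} (h1 : x₁ ∈ maximalIdeal S)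
    (h2 : x₂ ∈ maximalIdeal S)
    (hreg : RegularBelow ((maximalIdeal R).map (algebraMap R S)) x₁ x₂ (c + 1))
    (A : ℕ) (hcA : c ≤ A)
    (hA : maximalIdeal S ^ A ≤ (maximalIdeal R ^ k₀).map (algebraMap R S)) :
    maximalIdeal S ^ A ≤ (maximalIdeal R ^ k₀).map (algebraMap R S) * maximalIdeal S ^ c ⊔
      (maximalIdeal R ^ (k₀ + 1)).map (algebraMap R S) := by
  obtain ⟨s, a, ha1, ha2, ha3⟩ := exists_liftk R k₀
  intro y hy
  obtain ⟨f, hf⟩ := exists_coefk (S := S) k₀ ha2 y (hA hy)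
  have h3 := deep_stepk k₀ ha3 ha2 h1 h2 hreg A hA c le_rfl hcA y hy f hf
  have e : y = (y - ∑ l, a l • f l) + ∑ l, a l • f l := by ring
  rw [e]
  refine Ideal.add_mem _ (Ideal.mem_sup_right hf) (Ideal.sum_mem _ fun l _ => ?_)
  obtain ⟨p, hp, q, hq, hpq⟩ := Submodule.mem_sup.mp (h3 l)
  rw [← hpq, Algebra.smul_def, mul_add]
  have hal := Ideal.mem_map_of_mem (algebraMap R S) (ha1 l)
  refine Submodule.add_mem_sup (Ideal.mul_mem_mul hal hp) ?_
  rw [pow_succ, Ideal.map_mul]
  exact Ideal.mul_mem_mul hal hq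

theorem deep_all {x₁ x₂ : S} {c : ℕ} (h1 : x₁ ∈ maximalIdeal S) (h2 : x₂ ∈ maximalIdeal S)
    (hreg : RegularBelow ((maximalIdeal R).map (algebraMap R S)) x₁ x₂ (c + 1))
    (b : ℕ) (hcb : c ≤ b)
    (hb : maximalIdeal S ^ b ≤ (maximalIdeal R).map (algebraMap R S)) (k : ℕ) :
    maximalIdeal S ^ ((b - c) * k + c) ≤ (maximalIdeal R ^ k).map (algebraMap R S) := by
  induction k with
  | zero =>
    rw [pow_zero, Ideal.one_eq_top, Ideal.map_top]
    exact le_top
  | succ k ih =>
    have h3 := deep_lek k h1 h2 hreg _ (by omega) ih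
    have e : maximalIdeal S ^ ((b - c) * (k + 1) + c) =
        maximalIdeal S ^ (b - c) * maximalIdeal S ^ ((b - c) * k + c) := by
      rw [← pow_add]; congr 1; ring
    rw [e]
    refine (Ideal.mul_mono_right h3).trans ?_
    rw [Ideal.mul_sup]
    refine sup_le ?_ Ideal.mul_le_right
    have e2 : maximalIdeal S ^ (b - c) *
        ((maximalIdeal R ^ k).map (algebraMap R S) * maximalIdeal S ^ c) =
        (maximalIdeal R ^ k).map (algebraMap R S) * maximalIdeal S ^ b := by
      have : b = (b - c) + c := by omega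
      rw [mul_left_comm, ← pow_add, ← this]
    rw [e2, pow_succ, Ideal.map_mul]
    exact Ideal.mul_mono_right hb

theorem spread_bound {d : ℕ} {eR eS : ℝ} (hR : IsMultiplicity R d eR)
    (hS : IsMultiplicity S d eS)
    (l : ℕ) (hl : Module.length S (S ⧸ (maximalIdeal R).map (algebraMap R S)) = (l : ℕ∞))
    {x₁ x₂ : S} {c : ℕ} (h1 : x₁ ∈ maximalIdeal S) (h2 : x₂ ∈ maximalIdeal S)
    (hreg : RegularBelow ((maximalIdeal R).map (algebraMap R S)) x₁ x₂ (c + 1))
    (b : ℕ) (hcb : c ≤ b)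
    (hb : maximalIdeal S ^ b ≤ (maximalIdeal R).map (algebraMap R S)) :
    (l : ℝ) * eR ≤ ((b - c : ℕ) : ℝ) ^ d * eS := by
  refine limit_aff (q := c) fun t ht => ?_
  have h3 := key hR hS l _ t hl ht (deep_all h1 h2 hreg b hcb hb t)
  rwa [mul_assoc] at h3

theorem spread_bound_quot (L : List R) (hL : ∀ y ∈ L, y ∈ maximalIdeal R)
    [IsLocalRing (S ⧸ (Ideal.ofList L).map (algebraMap R S))] {r : ℕ} {eR eT : ℝ}
    (hR : IsMultiplicity R (r + L.length) eR)
    (hT : IsMultiplicity (S ⧸ (Ideal.ofList L).map (algebraMap R S)) r eT)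
    (l : ℕ) (hl : Module.length S (S ⧸ (maximalIdeal R).map (algebraMap R S)) = (l : ℕ∞))
    {x₁ x₂ : S} {c : ℕ} (h1 : x₁ ∈ maximalIdeal S) (h2 : x₂ ∈ maximalIdeal S)
    (hreg : RegularBelow ((maximalIdeal R).map (algebraMap R S)) x₁ x₂ (c + 1))
    (b : ℕ) (hcb : c ≤ b)
    (hb : maximalIdeal S ^ b ≤ (maximalIdeal R).map (algebraMap R S)) :
    (l : ℝ) * eR ≤ ((b - c : ℕ) : ℝ) ^ r * eT := by
  refine limit_aff (q := c) fun t ht => ?_
  have h3 := key_quot L hL hR hT l _ t hl ht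
    ((deep_all h1 h2 hreg b hcb hb t).trans le_sup_left)
  rwa [mul_assoc] at h3

end

end Vale.Agent.P202
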