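import Vale.Agent.P202.Final2

namespace Vale.Agent.P202

open Filter Topology IsLocalRing TensorProduct

/-- `x₁, x₂` behave like a regular sequence in degrees below `c` of the closed fibre `S / M`. -/
def RegularBelow {S : Type*} [CommRing S] [IsLocalRing S] (M : Ideal S) (x₁ x₂ : S) (c : ℕ) :
    Prop :=
  ∀ j : ℕ, j + 2 ≤ c →
    (∀ v ∈ maximalIdeal S ^ j ⊔ M, x₁ * v ∈ maximalIdeal S ^ (j + 2) ⊔ M →
      v ∈ maximalIdeal S ^ (j + 1) ⊔ M) ∧
    (∀ v ∈ maximalIdeal S ^ j ⊔ M, ∀ u ∈ maximalIdeal S ^ j ⊔ M,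
      x₂ * v - x₁ * u ∈ maximalIdeal S ^ (j + 2) ⊔ M →
      ∃ w ∈ maximalIdeal S ^ (j - 1) ⊔ M, v - x₁ * w ∈ maximalIdeal S ^ (j + 1) ⊔ M)

section
variable {S : Type*} [CommRing S] [IsLocalRing S] {M : Ideal S}

theorem mul_ord {x v : S} (hx : x ∈ maximalIdeal S) {j : ℕ}
    (hv : v ∈ maximalIdeal S ^ j ⊔ M) : x * v ∈ maximalIdeal S ^ (j + 1) ⊔ M := by
  obtain ⟨p, hp, q, hq, rfl⟩ := Submodule.mem_sup.mp hv
  rw [mul_add]
  refine Submodule.add_mem_sup ?_ (M.mul_mem_left _ hq)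
  rw [pow_succ']
  exact Ideal.mul_mem_mul hx hp

theorem ord_mono {v : S} {i j : ℕ} (hij : i ≤ j)
    (hv : v ∈ maximalIdeal S ^ j ⊔ M) : v ∈ maximalIdeal S ^ i ⊔ M :=
  sup_le_sup_right (Ideal.pow_le_pow_right hij) M hv

theorem chain {x₁ x₂ : S} {c : ℕ} (h1 : x₁ ∈ maximalIdeal S) (h2 : x₂ ∈ maximalIdeal S)
    (hreg : RegularBelow M x₁ x₂ c) :
    ∀ j, j + 2 ≤ c → ∀ v : ℕ → S, (∀ k ≤ j + 1, v k ∈ maximalIdeal S ^ j ⊔ M) →
      (∀ k ≤ j, x₂ * v k - x₁ * v (k + 1) ∈ maximalIdeal S ^ (j + 2) ⊔ M) →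
      v 0 ∈ maximalIdeal S ^ (j + 1) ⊔ M := by
  intro j
  induction j with
  | zero =>
    intro hj v hv hrel
    obtain ⟨w, _, hw⟩ := (hreg 0 hj).2 (v 0) (hv 0 (by omega)) (v 1) (hv 1 (by omega))
      (hrel 0 le_rfl)
    have h3 : v 0 = (v 0 - x₁ * w) + x₁ * w := by ring
    rw [h3]
    refine Ideal.add_mem _ hw (Ideal.mem_sup_left ?_)
    rw [zero_add, pow_one]
    exact Ideal.mul_mem_right _ _ h1
  | succ j ih =>
    intro hj v hv hrel
    have hex : ∀ k, ∃ w, k ≤ j + 1 → (w ∈ maximalIdeal S ^ j ⊔ M ∧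
        v k - x₁ * w ∈ maximalIdeal S ^ (j + 2) ⊔ M) := by
      intro k
      by_cases hk : k ≤ j + 1
      · obtain ⟨w, hw1, hw2⟩ := (hreg (j + 1) hj).2 (v k) (hv k (by omega)) (v (k + 1))
          (hv (k + 1) (by omega)) (hrel k hk)
        exact ⟨w, fun _ => ⟨by simpa using hw1, hw2⟩⟩
      · exact ⟨0, fun h => absurd h hk⟩
    choose w hw using hex
    have h3 : w 0 ∈ maximalIdeal S ^ (j + 1) ⊔ M := by
      refine ih (by omega) w (fun k hk => (hw k hk).1) fun k hk => ?_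
      refine (hreg (j + 1) hj).1 _ ?_ ?_
      · refine Ideal.sub_mem _ (mul_ord h2 (hw k (by omega)).1)
          (mul_ord h1 (hw (k + 1) (by omega)).1)
      · have e : x₁ * (x₂ * w k - x₁ * w (k + 1)) =
            (x₂ * v k - x₁ * v (k + 1)) - x₂ * (v k - x₁ * w k) +
              x₁ * (v (k + 1) - x₁ * w (k + 1)) := by ring
        rw [e]
        refine Ideal.add_mem _ (Ideal.sub_mem _ (hrel k (by omega)) ?_) ?_
        · exact mul_ord h2 (hw k (by omega)).2
        · exact mul_ord h1 (hw (k + 1) (by omega)).2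
    have e : v 0 = (v 0 - x₁ * w 0) + x₁ * w 0 := by ring
    rw [e]
    exact Ideal.add_mem _ (hw 0 (by omega)).2 (mul_ord h1 h3)

end

section
variable {R S : Type*} [CommRing R] [CommRing S] [IsLocalRing R] [IsLocalRing S]
  [IsNoetherianRing R] [IsNoetherianRing S] [Algebra R S] [IsLocalHom (algebraMap R S)]
  [Module.Flat R S]

theorem deep_step {s : ℕ} {a : Fin s → R}
    (ha3 : ∀ r : Fin s → R, ∑ l, a l * r l ∈ (maximalIdeal R) ^ 2 → ∀ l, r l ∈ maximalIdeal R)
    (ha2 : maximalIdeal R ≤ Ideal.span (Set.range a) ⊔ (maximalIdeal R) ^ 2)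
    {x₁ x₂ : S} {c : ℕ} (h1 : x₁ ∈ maximalIdeal S) (h2 : x₂ ∈ maximalIdeal S)
    (hreg : RegularBelow ((maximalIdeal R).map (algebraMap R S)) x₁ x₂ c)
    (A : ℕ) (hA : maximalIdeal S ^ A ≤ (maximalIdeal R).map (algebraMap R S)) :
    ∀ j, j + 1 ≤ c → j ≤ A → ∀ y ∈ maximalIdeal S ^ A, ∀ f : Fin s → S,
      y - ∑ l, a l • f l ∈ ((maximalIdeal R) ^ 2).map (algebraMap R S) →
      ∀ l, f l ∈ maximalIdeal S ^ j ⊔ (maximalIdeal R).map (algebraMap R S) := by
  set M := (maximalIdeal R).map (algebraMap R S) with hM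
  set M2 := ((maximalIdeal R) ^ 2).map (algebraMap R S) with hM2
  -- comparison of coefficients
  have cmp : ∀ (p q : S) (y y' : S) (f f' : Fin s → S), p * y = q * y' →
      y - ∑ l, a l • f l ∈ M2 → y' - ∑ l, a l • f' l ∈ M2 →
      ∀ l, p * f l - q * f' l ∈ M := by
    intro p q y y' f f' hpq hy hy' l
    refine flat_coef ha3 (fun l => p * f l - q * f' l) ?_ l
    have e : ∑ l, a l • (p * f l - q * f' l) =
        q * (y' - ∑ l, a l • f' l) - p * (y - ∑ l, a l • f l) := by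
      have : ∑ l, a l • (p * f l - q * f' l) =
          p * ∑ l, a l • f l - q * ∑ l, a l • f' l := by
        rw [Finset.mul_sum, Finset.mul_sum, ← Finset.sum_sub_distrib]
        refine Finset.sum_congr rfl fun l _ => ?_
        rw [smul_sub, mul_smul_comm, mul_smul_comm]
      rw [this]
      linear_combination hpq
    rw [e]
    exact Ideal.sub_mem _ (Ideal.mul_mem_left _ _ hy') (Ideal.mul_mem_left _ _ hy)
  intro j
  induction j with
  | zero =>
    intro _ _ y _ f _ l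
    simp
  | succ j ih =>
    intro hjc hjA
    have C := ih (by omega) (by omega)
    -- step 2
    have E : ∀ i ≤ j + 1, ∀ N ∈ maximalIdeal S ^ (A - (j + 1 - i)), ∀ f : Fin s → S,
        x₁ ^ (j + 1 - i) * N - ∑ l, a l • f l ∈ M2 →
        ∀ l, f l ∈ maximalIdeal S ^ (j + 1) ⊔ M := by
      intro i
      induction i with
      | zero =>
        intro _ N hN f hf l
        rw [Nat.sub_zero] at hN hf
        have hmem : ∀ k, k ≤ j + 1 → x₁ ^ (j + 1 - k) * x₂ ^ k * N ∈ maximalIdeal S ^ A := by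
          intro k hk
          have e : A = (j + 1 - k) + k + (A - (j + 1)) := by omega
          rw [e, pow_add, pow_add]
          refine Ideal.mul_mem_mul (Ideal.mul_mem_mul (Ideal.pow_mem_pow h1 _)
            (Ideal.pow_mem_pow h2 _)) ?_
          exact hN
        have hex : ∀ k, ∃ g : Fin s → S, k ≤ j + 1 →
            x₁ ^ (j + 1 - k) * x₂ ^ k * N - ∑ l, a l • g l ∈ M2 := by
          intro k
          by_cases hk : k ≤ j + 1
          · obtain ⟨g, hg⟩ := exists_coef (S := S) ha2 _ (hA (hmem k hk))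
            exact ⟨g, fun _ => hg⟩
          · exact ⟨0, fun h => absurd h hk⟩
        choose g hg using hex
        have h3 : g 0 l ∈ maximalIdeal S ^ (j + 1) ⊔ M := by
          refine chain h1 h2 hreg j (by omega) (fun k => g k l)
            (fun k hk => C _ (hmem k hk) (g k) (hg k hk) l) fun k hk => ?_
          refine Ideal.mem_sup_right ?_
          refine cmp x₂ x₁ _ _ (g k) (g (k + 1)) ?_ (hg k (by omega)) (hg (k + 1) (by omega)) l
          have e : j + 1 - k = (j + 1 - (k + 1)) + 1 := by omega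
          rw [e, pow_succ, pow_succ]
          ring
        have h4 := cmp 1 1 _ _ f (g 0) (by rw [Nat.sub_zero, pow_zero]; ring) hf
          (hg 0 (by omega)) l
        have e : f l = (1 * f l - 1 * g 0 l) + g 0 l := by ring
        rw [e]
        exact Ideal.add_mem _ (Ideal.mem_sup_right h4) h3
      | succ i ihi =>
        intro hi N hN
        have ih' := ihi (by omega)
        have e1 : j + 1 - i = (j + 1 - (i + 1)) + 1 := by omega
        set q := j + 1 - (i + 1) with hq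
        have e2 : A - q = (A - (j + 1 - i)) + 1 := by omega
        rw [e2, pow_succ', ← smul_eq_mul] at hN
        have hmemq : ∀ N₀ ∈ maximalIdeal S ^ (A - q), x₁ ^ q * N₀ ∈ maximalIdeal S ^ A := by
          intro N₀ hN₀
          have e : A = q + (A - q) := by omega
          rw [e, pow_add]
          refine Ideal.mul_mem_mul (Ideal.pow_mem_pow h1 _) ?_
          exact hN₀
        suffices hsuf : N ∈ maximalIdeal S ^ (A - q) ∧ ∀ f : Fin s → S,
            x₁ ^ q * N - ∑ l, a l • f l ∈ M2 →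
            ∀ l, f l ∈ maximalIdeal S ^ (j + 1) ⊔ M from hsuf.2
        refine Submodule.smul_induction_on
          (p := fun N => N ∈ maximalIdeal S ^ (A - q) ∧ ∀ f : Fin s → S,
            x₁ ^ q * N - ∑ l, a l • f l ∈ M2 →
            ∀ l, f l ∈ maximalIdeal S ^ (j + 1) ⊔ M) hN ?_ ?_
        · intro z hz N' hN'
          refine ⟨?_, ?_⟩
          · rw [e2, pow_succ', ← smul_eq_mul]
            exact Submodule.smul_mem_smul hz hN'
          intro f hf l
          have hmem : x₁ ^ q * (z • N') ∈ maximalIdeal S ^ A := by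
            have e : A = q + (1 + (A - (j + 1 - i))) := by omega
            rw [e, pow_add, pow_add, pow_one]
            exact Ideal.mul_mem_mul (Ideal.pow_mem_pow h1 _) (Ideal.mul_mem_mul hz hN')
          have hmem' : x₁ ^ (j + 1 - i) * N' ∈ maximalIdeal S ^ A := by
            have e : A = (j + 1 - i) + (A - (j + 1 - i)) := by omega
            rw [e, pow_add]
            refine Ideal.mul_mem_mul ?_ ?_
            · exact Ideal.pow_mem_pow h1 _
            · exact hN'
          obtain ⟨f', hf'⟩ := exists_coef (S := S) ha2 _ (hA hmem')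
          have h3 := ih' N' hN' f' hf' l
          have h4 := cmp x₁ z _ _ f f' (by rw [e1, pow_succ, smul_eq_mul]; ring) hf hf' l
          refine (hreg j (by omega)).1 (f l) (C _ hmem f hf l) ?_
          have e : x₁ * f l = (x₁ * f l - z * f' l) + z * f' l := by ring
          rw [e]
          exact Ideal.add_mem _ (Ideal.mem_sup_right h4) (mul_ord hz h3)
        · intro N₁ N₂ ih1 ih2
          refine ⟨Ideal.add_mem _ ih1.1 ih2.1, ?_⟩
          intro f hf l
          obtain ⟨g₁, hg₁⟩ := exists_coef (S := S) ha2 _ (hA (hmemq N₁ ih1.1))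
          obtain ⟨g₂, hg₂⟩ := exists_coef (S := S) ha2 _ (hA (hmemq N₂ ih2.1))
          have hg : x₁ ^ q * (N₁ + N₂) - ∑ l, a l • (g₁ l + g₂ l) ∈ M2 := by
            have e : x₁ ^ q * (N₁ + N₂) - ∑ l, a l • (g₁ l + g₂ l) =
                (x₁ ^ q * N₁ - ∑ l, a l • g₁ l) + (x₁ ^ q * N₂ - ∑ l, a l • g₂ l) := by
              have : ∑ l, a l • (g₁ l + g₂ l) = ∑ l, a l • g₁ l + ∑ l, a l • g₂ l := by
                rw [← Finset.sum_add_distrib]
                exact Finset.sum_congr rfl fun l _ => smul_add _ _ _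
              rw [this]; ring
            rw [e]
            exact Ideal.add_mem _ hg₁ hg₂
          have h3 := cmp 1 1 _ _ f (fun l => g₁ l + g₂ l) rfl hf hg l
          have e : f l = (1 * f l - 1 * (g₁ l + g₂ l)) + (g₁ l + g₂ l) := by ring
          rw [e]
          exact Ideal.add_mem _ (Ideal.mem_sup_right h3)
            (Ideal.add_mem _ (ih1.2 g₁ hg₁ l) (ih2.2 g₂ hg₂ l))
    intro y hy f hf l
    exact E (j + 1) le_rfl y (by simpa using hy) f (by simpa using hf) l

theorem deep_le {x₁ x₂ : S} {c : ℕ} (h1 : x₁ ∈ maximalIdeal S) (h2 : x₂ ∈ maximalIdeal S)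
    (hreg : RegularBelow ((maximalIdeal R).map (algebraMap R S)) x₁ x₂ (c + 1))
    (A : ℕ) (hcA : c ≤ A)
    (hA : maximalIdeal S ^ A ≤ (maximalIdeal R).map (algebraMap R S)) :
    maximalIdeal S ^ A ≤ (maximalIdeal R).map (algebraMap R S) * maximalIdeal S ^ c ⊔
      (maximalIdeal R).map (algebraMap R S) ^ 2 := by
  obtain ⟨s, a, ha1, ha2, ha3⟩ := exists_lift R
  intro y hy
  obtain ⟨f, hf⟩ := exists_coef (S := S) ha2 y (hA hy)
  have h3 := deep_step ha3 ha2 h1 h2 hreg A hA c le_rfl hcA y hy f hf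
  rw [Ideal.map_pow] at hf
  have e : y = (y - ∑ l, a l • f l) + ∑ l, a l • f l := by ring
  rw [e]
  refine Ideal.add_mem _ (Ideal.mem_sup_right hf) (Ideal.sum_mem _ fun l _ => ?_)
  obtain ⟨p, hp, q, hq, hpq⟩ := Submodule.mem_sup.mp (h3 l)
  rw [← hpq, Algebra.smul_def, mul_add]
  have hal := Ideal.mem_map_of_mem (algebraMap R S) (ha1 l)
  refine Submodule.add_mem_sup (Ideal.mul_mem_mul hal hp) ?_
  rw [pow_two]
  exact Ideal.mul_mem_mul hal hq

omit [IsNoetherianRing R] [IsNoetherianRing S] [IsLocalHom (algebraMap R S)]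
  [Module.Flat R S] [IsLocalRing R] in
/-- iteration of the containment `n ^ A ≤ M n ^ c + M ^ 2` -/
theorem iterate_le (M : Ideal S) {A c : ℕ} (hcA : c ≤ A)
    (h : maximalIdeal S ^ A ≤ M * maximalIdeal S ^ c ⊔ M ^ 2) (B : ℕ)
    (hB1 : 2 * (A - c) ≤ B) (hB2 : A ≤ B) :
    ∀ p N : ℕ, B * p + 2 * A ≤ 2 * N → maximalIdeal S ^ N ≤ M ^ p := by
  intro p
  induction p using Nat.strong_induction_on with
  | _ p ih =>
    intro N hN
    rcases Nat.eq_zero_or_pos p with hp | hp
    · subst hp; simp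
    have hNA : A ≤ N := by
      have : 0 ≤ B * p := Nat.zero_le _
      omega
    have e : maximalIdeal S ^ N = maximalIdeal S ^ (N - A) * maximalIdeal S ^ A := by
      rw [← pow_add]; congr 1; omega
    have h3 : maximalIdeal S ^ N ≤
        M * maximalIdeal S ^ (N - A + c) ⊔ M ^ 2 * maximalIdeal S ^ (N - A) := by
      rw [e]
      refine (Ideal.mul_mono_right h).trans (le_of_eq ?_)
      rw [Ideal.mul_sup, pow_add]
      congr 1 <;> ring
    refine h3.trans (sup_le ?_ ?_)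
    · have h4 := ih (p - 1) (by omega) (N - A + c) (by
        obtain ⟨p', rfl⟩ : ∃ p', p = p' + 1 := ⟨p - 1, by omega⟩
        rw [Nat.add_sub_cancel]
        rw [mul_add, mul_one] at hN
        omega)
      calc M * maximalIdeal S ^ (N - A + c) ≤ M * M ^ (p - 1) := Ideal.mul_mono_right h4
        _ = M ^ p := by rw [← pow_succ']; congr 1; omega
    · rcases Nat.lt_or_ge p 2 with hp2 | hp2
      · have : p = 1 := by omega
        subst this
        have h5 : M ^ 2 * maximalIdeal S ^ (N - A) ≤ M ^ 2 := Ideal.mul_le_left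
        exact h5.trans (Ideal.pow_le_pow_right (by norm_num))
      · have h4 := ih (p - 2) (by omega) (N - A) (by
          obtain ⟨p', rfl⟩ : ∃ p', p = p' + 2 := ⟨p - 2, by omega⟩
          rw [Nat.add_sub_cancel]
          rw [mul_add] at hN
          omega)
        calc M ^ 2 * maximalIdeal S ^ (N - A) ≤ M ^ 2 * M ^ (p - 2) := Ideal.mul_mono_right h4
          _ = M ^ p := by rw [← pow_add]; congr 1; omega

theorem limit_aff {r a q : ℕ} {X Y : ℝ}
    (h : ∀ t : ℕ, 1 ≤ t → (t : ℝ) ^ r * X ≤ ((a * t + q : ℕ) : ℝ) ^ r * Y) :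
    X ≤ (a : ℝ) ^ r * Y := by
  have h1 : Tendsto (fun t : ℕ => ((a : ℝ) + (q : ℝ) / (t : ℝ)) ^ r * Y) atTop
      (𝓝 (((a : ℝ) + 0) ^ r * Y)) :=
    (((tendsto_const_div_atTop_nhds_zero_nat (q : ℝ)).const_add (a : ℝ)).pow r).mul_const Y
  rw [add_zero] at h1
  refine ge_of_tendsto h1 ?_
  filter_upwards [eventually_ge_atTop 1] with t ht
  have ht0 : (0 : ℝ) < t := by exact_mod_cast ht
  have h2 := h t ht
  have h3 : ((a * t + q : ℕ) : ℝ) = (t : ℝ) * ((a : ℝ) + q / t) := by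
    push_cast; field_simp
  rw [h3, mul_pow, mul_assoc] at h2
  exact le_of_mul_le_mul_left h2 (by positivity)

theorem deep_pow {x₁ x₂ : S} {c : ℕ} (h1 : x₁ ∈ maximalIdeal S) (h2 : x₂ ∈ maximalIdeal S)
    (hreg : RegularBelow ((maximalIdeal R).map (algebraMap R S)) x₁ x₂ (c + 1))
    (A : ℕ) (hcA : c ≤ A)
    (hA : maximalIdeal S ^ A ≤ (maximalIdeal R).map (algebraMap R S)) (t : ℕ) :
    maximalIdeal S ^ (max (2 * (A - c)) A * t + A) ≤
      (maximalIdeal R ^ (2 * t)).map (algebraMap R S) := by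
  rw [Ideal.map_pow]
  refine iterate_le _ hcA (deep_le h1 h2 hreg A hcA hA) (max (2 * (A - c)) A)
    (le_max_left _ _) (le_max_right _ _) (2 * t) _ ?_
  generalize max (2 * (A - c)) A = B
  have : B * (2 * t) = 2 * (B * t) := by ring
  omega

theorem deep_bound {d : ℕ} {eR eS : ℝ} (hR : IsMultiplicity R d eR)
    (hS : IsMultiplicity S d eS)
    (l : ℕ) (hl : Module.length S (S ⧸ (maximalIdeal R).map (algebraMap R S)) = (l : ℕ∞))
    {x₁ x₂ : S} {c : ℕ} (h1 : x₁ ∈ maximalIdeal S) (h2 : x₂ ∈ maximalIdeal S)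
    (hreg : RegularBelow ((maximalIdeal R).map (algebraMap R S)) x₁ x₂ (c + 1))
    (A : ℕ) (hcA : c ≤ A)
    (hA : maximalIdeal S ^ A ≤ (maximalIdeal R).map (algebraMap R S)) :
    (2 : ℝ) ^ d * l * eR ≤ ((max (2 * (A - c)) A : ℕ) : ℝ) ^ d * eS := by
  refine limit_aff (q := A) fun t ht => ?_
  have h3 := key hR hS l _ (2 * t) hl (by omega) (deep_pow h1 h2 hreg A hcA hA t)
  have e : (t : ℝ) ^ d * ((2 : ℝ) ^ d * l * eR) = ((2 * t : ℕ) : ℝ) ^ d * l * eR := by
    push_cast; rw [mul_pow]; ring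
  rw [e]
  exact h3

theorem deep_bound_quot (L : List R) (hL : ∀ y ∈ L, y ∈ maximalIdeal R)
    [IsLocalRing (S ⧸ (Ideal.ofList L).map (algebraMap R S))] {r : ℕ} {eR eT : ℝ}
    (hR : IsMultiplicity R (r + L.length) eR)
    (hT : IsMultiplicity (S ⧸ (Ideal.ofList L).map (algebraMap R S)) r eT)
    (l : ℕ) (hl : Module.length S (S ⧸ (maximalIdeal R).map (algebraMap R S)) = (l : ℕ∞))
    {x₁ x₂ : S} {c : ℕ} (h1 : x₁ ∈ maximalIdeal S) (h2 : x₂ ∈ maximalIdeal S)
    (hreg : RegularBelow ((maximalIdeal R).map (algebraMap R S)) x₁ x₂ (c + 1))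
    (A : ℕ) (hcA : c ≤ A)
    (hA : maximalIdeal S ^ A ≤ (maximalIdeal R).map (algebraMap R S)) :
    (2 : ℝ) ^ r * l * eR ≤ ((max (2 * (A - c)) A : ℕ) : ℝ) ^ r * eT := by
  refine limit_aff (q := A) fun t ht => ?_
  have h3 := key_quot L hL hR hT l _ (2 * t) hl (by omega)
    ((deep_pow h1 h2 hreg A hcA hA t).trans le_sup_left)
  have e : (t : ℝ) ^ r * ((2 : ℝ) ^ r * l * eR) = ((2 * t : ℕ) : ℝ) ^ r * l * eR := by
    push_cast; rw [mul_pow]; ring
  rw [e]
  exact h3

end

end Vale.Agent.P202
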