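import Vale.Agent.P202.Quot

namespace Vale.Agent.P202

open Filter Topology IsLocalRing TensorProduct

section
variable {R S : Type*} [CommRing R] [CommRing S] [IsLocalRing R] [IsLocalRing S]
  [IsNoetherianRing R] [IsNoetherianRing S] [Algebra R S] [IsLocalHom (algebraMap R S)]
  [Module.Flat R S]

theorem exists_loewy
    (l : ℕ) (hl : Module.length S (S ⧸ (maximalIdeal R).map (algebraMap R S)) = (l : ℕ∞)) :
    ∃ b : ℕ, 1 ≤ b ∧ b ≤ l ∧ maximalIdeal S ^ b ≤ (maximalIdeal R).map (algebraMap R S) ∧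
      (∀ a : ℕ, maximalIdeal S ^ a ≤ (maximalIdeal R).map (algebraMap R S) → b ≤ a) := by
  classical
  have hex : ∃ a : ℕ, maximalIdeal S ^ a ≤ (maximalIdeal R).map (algebraMap R S) := by
    have hf : IsFiniteLength S (S ⧸ (maximalIdeal R).map (algebraMap R S)) := by
      rw [← Module.length_ne_top_iff, hl]; simp
    rw [isFiniteLength_iff_isNoetherian_isArtinian] at hf
    have h2 := hf.2
    have h3 : IsArtinianRing (S ⧸ (maximalIdeal R).map (algebraMap R S)) :=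
      isArtinian_of_tower S h2
    exact IsLocalRing.exists_maximalIdeal_pow_le_of_isArtinianRing_quotient _
  have hb1 : 1 ≤ Nat.find hex := by
    rw [Nat.one_le_iff_ne_zero]
    intro h0
    have := Nat.find_spec hex
    rw [h0, pow_zero, Ideal.one_eq_top] at this
    exact absurd (top_le_iff.mp this) (map_lt_top (R := R) (S := S)).ne
  have hbl : Nat.find hex ≤ l := by
    have h1 := loewy_le (R := R) (S := S) (Nat.find hex) (fun i hi => Nat.find_min hex hi) _ le_rfl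
    rw [sup_eq_right.mpr (Nat.find_spec hex), ← Module.length_quotient, hl] at h1
    exact_mod_cast h1
  exact ⟨Nat.find hex, hb1, hbl, Nat.find_spec hex, fun a ha => Nat.find_min' hex ha⟩

theorem cancel {b l r : ℕ} {eR eT : ℝ} (hb1 : 1 ≤ b) (hbl : b ≤ l) (hr : 1 ≤ r)
    (hR0 : 0 ≤ eR) (hk : ((1 : ℕ) : ℝ) ^ r * l * eR ≤ (b : ℝ) ^ r * eT) :
    eR ≤ (b : ℝ) ^ (r - 1) * eT := by
  have hb0 : (0 : ℝ) < b := by exact_mod_cast hb1
  have h2 : (b : ℝ) * eR ≤ l * eR := by gcongr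
  have h3 : (b : ℝ) ^ r = b * (b : ℝ) ^ (r - 1) := by
    rw [← pow_succ']; congr 1; omega
  rw [h3] at hk
  have h4 : (b : ℝ) * eR ≤ (b : ℝ) * ((b : ℝ) ^ (r - 1) * eT) := by
    calc (b : ℝ) * eR ≤ l * eR := h2
      _ = ((1 : ℕ) : ℝ) ^ r * l * eR := by simp
      _ ≤ _ := hk
      _ = _ := by ring
  exact le_of_mul_le_mul_left h4 hb0

theorem lech_of_le {d l k p : ℕ} {eR eS : ℝ} (hl : 1 ≤ l) (hp : 1 ≤ p) (hS0 : 0 ≤ eS)
    (hk : (p : ℝ) ^ d * l * eR ≤ (k : ℝ) ^ d * eS) (hle : k ^ d ≤ p ^ d * l) : eR ≤ eS := by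
  have h1 : (k : ℝ) ^ d ≤ (p : ℝ) ^ d * l := by exact_mod_cast hle
  have h2 : (p : ℝ) ^ d * l * eR ≤ (p : ℝ) ^ d * l * eS := hk.trans (by gcongr)
  refine le_of_mul_le_mul_left h2 ?_
  have : (0 : ℝ) < p := by exact_mod_cast hp
  have : (0 : ℝ) < l := by exact_mod_cast hl
  positivity

end

end Vale.Agent.P202
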