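import Mathlib

/-! Socle of the closed fibre of a flat local homomorphism. -/

namespace Vale.Agent.P202

open IsLocalRing

variable {R S : Type*} [CommRing R] [CommRing S] [IsLocalRing R] [IsLocalRing S]
  [IsNoetherianRing R] [Algebra R S]

/-- lifts of a basis of the cotangent space -/
theorem exists_lift (R : Type*) [CommRing R] [IsLocalRing R] [IsNoetherianRing R] :
    ∃ (s : ℕ) (a : Fin s → R), (∀ l, a l ∈ maximalIdeal R) ∧
      (maximalIdeal R ≤ Ideal.span (Set.range a) ⊔ (maximalIdeal R) ^ 2) ∧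
      (∀ r : Fin s → R, ∑ l, a l * r l ∈ (maximalIdeal R) ^ 2 → ∀ l, r l ∈ maximalIdeal R) := by
  classical
  let b := Module.finBasis (ResidueField R) (CotangentSpace R)
  have hs := (maximalIdeal R).toCotangent_surjective
  choose x hx using fun l => hs (b l)
  refine ⟨_, fun l => (x l : R), fun l => (x l).2, ?_, ?_⟩
  · intro y hy
    have h1 := b.sum_repr ((maximalIdeal R).toCotangent ⟨y, hy⟩)
    choose r hr using fun l => IsLocalRing.residue_surjective (R := R)
      (b.repr ((maximalIdeal R).toCotangent ⟨y, hy⟩) l)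
    have h2 : (maximalIdeal R).toCotangent (⟨y, hy⟩ - ∑ l, r l • x l) = 0 := by
      rw [map_sub, map_sum, sub_eq_zero]
      rw [← h1]
      refine Finset.sum_congr rfl fun l _ => ?_
      rw [map_smul, hx, ← hr l]
      rfl
    rw [Ideal.toCotangent_eq_zero] at h2
    have h3 : y = (∑ l, r l * (x l : R)) + (((⟨y, hy⟩ - ∑ l, r l • x l : maximalIdeal R)) : R) := by
      push_cast
      simp
    rw [h3]
    refine Ideal.add_mem _ (Ideal.mem_sup_left ?_) (Ideal.mem_sup_right h2)
    exact Ideal.sum_mem _ fun l _ => Ideal.mul_mem_left _ _ (Ideal.subset_span ⟨l, rfl⟩)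
  · intro r hr l
    have h1 : (maximalIdeal R).toCotangent (∑ l, r l • x l) = 0 := by
      rw [Ideal.toCotangent_eq_zero]
      convert hr using 1
      push_cast
      refine Finset.sum_congr rfl fun l _ => ?_
      simp [mul_comm]
    have h2 : ∑ l, (residue R (r l)) • b l = 0 := by
      rw [← h1, map_sum]
      refine Finset.sum_congr rfl fun l _ => ?_
      rw [map_smul, hx]
      rfl
    have h3 := (Fintype.linearIndependent_iff.mp b.linearIndependent) _ h2 l
    rwa [residue_eq_zero_iff] at h3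

/-- flatness -/
theorem flat_coef [Module.Flat R S] {s : ℕ} {a : Fin s → R}
    (ha : ∀ r : Fin s → R, ∑ l, a l * r l ∈ (maximalIdeal R) ^ 2 → ∀ l, r l ∈ maximalIdeal R)
    (f : Fin s → S)
    (h : ∑ l, a l • f l ∈ ((maximalIdeal R) ^ 2).map (algebraMap R S)) (l : Fin s) :
    f l ∈ (maximalIdeal R).map (algebraMap R S) := by
  rw [Ideal.map, Ideal.span, Submodule.mem_span_set'] at h
  obtain ⟨n, g, c, hc⟩ := h
  choose d hd hd' using fun p => (c p).2
  have hrel : ∑ i, (Sum.elim a (fun p => - d p) : Fin s ⊕ Fin n → R) i •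
      (Sum.elim f g : Fin s ⊕ Fin n → S) i = 0 := by
    rw [Fintype.sum_sum_type]
    simp only [Sum.elim_inl, Sum.elim_inr]
    rw [← hc]
    rw [← Finset.sum_add_distrib]
    refine Finset.sum_eq_zero fun p _ => ?_
    rw [smul_eq_mul, Algebra.smul_def, map_neg, ← hd' p]
    ring
  obtain ⟨k, A, y, h1, h2⟩ := Module.Flat.isTrivialRelation_of_sum_smul_eq_zero
    (R := R) (M := S) (f := Sum.elim a (fun p => - d p)) (x := Sum.elim f g) hrel
  have h3 : ∀ j, ∀ l, A (Sum.inl l) j ∈ maximalIdeal R := by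
    intro j
    apply ha (fun l => A (Sum.inl l) j)
    have := h2 j
    rw [Fintype.sum_sum_type] at this
    simp only [Sum.elim_inl, Sum.elim_inr] at this
    rw [add_eq_zero_iff_eq_neg] at this
    rw [this]
    refine Ideal.neg_mem_iff _ |>.mpr ?_
    refine Ideal.sum_mem _ fun p _ => Ideal.mul_mem_right _ _ ?_
    exact (Ideal.neg_mem_iff _).mpr (hd p)
  have h4 := h1 (Sum.inl l)
  simp only [Sum.elim_inl] at h4
  rw [h4]
  refine Ideal.sum_mem _ fun j _ => ?_
  rw [Algebra.smul_def]
  exact Ideal.mul_mem_right _ _ (Ideal.mem_map_of_mem _ (h3 j l))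

omit [IsLocalRing S] [IsNoetherianRing R] in
theorem exists_coef {s : ℕ} {a : Fin s → R}
    (hg : maximalIdeal R ≤ Ideal.span (Set.range a) ⊔ (maximalIdeal R) ^ 2) (w : S)
    (hw : w ∈ (maximalIdeal R).map (algebraMap R S)) :
    ∃ f : Fin s → S, w - ∑ l, a l • f l ∈ ((maximalIdeal R) ^ 2).map (algebraMap R S) := by
  have h1 := Ideal.map_mono (f := algebraMap R S) hg hw
  rw [Ideal.map_sup, Ideal.map_span, Submodule.mem_sup] at h1
  obtain ⟨u, hu, v, hv, huv⟩ := h1
  rw [← Set.range_comp, Ideal.mem_span_range_iff_exists_fun] at hu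
  obtain ⟨c, hc⟩ := hu
  refine ⟨c, ?_⟩
  have : w - ∑ l, a l • c l = v := by
    rw [← huv, ← hc]
    have : ∑ l, a l • c l = ∑ l, c l * (⇑(algebraMap R S) ∘ a) l := by
      refine Finset.sum_congr rfl fun l _ => ?_
      rw [Algebra.smul_def, mul_comm]
      rfl
    rw [this]
    ring
  rw [this]
  exact hv

/-- the socle of the closed fibre multiplies the maximal ideal into `m n` -/
theorem soc_mem [Module.Flat R S] [IsLocalHom (algebraMap R S)]
    (hF : ∀ x ∈ maximalIdeal S, ¬ maximalIdeal S ≤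
      Ideal.span {x} ⊔ (maximalIdeal R).map (algebraMap R S))
    (y : S) (hy : ∀ z ∈ maximalIdeal S, z * y ∈ (maximalIdeal R).map (algebraMap R S))
    (x : S) (hx : x ∈ maximalIdeal S) :
    x * y ∈ (maximalIdeal R).map (algebraMap R S) * maximalIdeal S := by
  obtain ⟨s, a, ha1, ha2, ha3⟩ := exists_lift R
  obtain ⟨f, hf⟩ := exists_coef (S := S) ha2 (x * y) (hy x hx)
  have hmn : (maximalIdeal R).map (algebraMap R S) ≤ maximalIdeal S := by
    rw [Ideal.map_le_iff_le_comap]
    intro r hr
    rw [Ideal.mem_comap, mem_maximalIdeal, mem_nonunits_iff]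
    intro hu
    exact (mem_nonunits_iff.mp ((mem_maximalIdeal r).mp hr)) (isUnit_of_map_unit _ r hu)
  have hm2 : ((maximalIdeal R) ^ 2).map (algebraMap R S) ≤
      (maximalIdeal R).map (algebraMap R S) * maximalIdeal S := by
    rw [Ideal.map_pow, pow_two]
    exact Ideal.mul_mono_right hmn
  by_cases hall : ∀ l, f l ∈ maximalIdeal S
  · have h1 : x * y = (x * y - ∑ l, a l • f l) + ∑ l, a l • f l := by ring
    rw [h1]
    refine Ideal.add_mem _ (hm2 hf) (Ideal.sum_mem _ fun l _ => ?_)
    rw [Algebra.smul_def]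
    exact Ideal.mul_mem_mul (Ideal.mem_map_of_mem _ (ha1 l)) (hall l)
  · exfalso
    push Not at hall
    obtain ⟨l0, hl0⟩ := hall
    have hu : IsUnit (f l0) := by
      by_contra hcon
      exact hl0 ((mem_maximalIdeal _).mpr (mem_nonunits_iff.mpr hcon))
    apply hF x hx
    intro z hz
    obtain ⟨g, hg⟩ := exists_coef (S := S) ha2 (z * y) (hy z hz)
    have h2 : ∑ l, a l • (z * f l - x * g l) ∈
        ((maximalIdeal R) ^ 2).map (algebraMap R S) := by
      have h3 : ∑ l, a l • (z * f l - x * g l) =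
          x * (z * y - ∑ l, a l • g l) - z * (x * y - ∑ l, a l • f l) := by
        rw [mul_sub, mul_sub, Finset.mul_sum, Finset.mul_sum]
        have : ∑ l, a l • (z * f l - x * g l) =
            ∑ l, z * (a l • f l) - ∑ l, x * (a l • g l) := by
          rw [← Finset.sum_sub_distrib]
          refine Finset.sum_congr rfl fun l _ => ?_
          rw [smul_sub, mul_smul_comm, mul_smul_comm]
        rw [this]
        ring
      rw [h3]
      exact Ideal.sub_mem _ (Ideal.mul_mem_left _ _ hg) (Ideal.mul_mem_left _ _ hf)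
    have h4 := flat_coef ha3 (fun l => z * f l - x * g l) h2 l0
    obtain ⟨u, hu'⟩ := hu
    have h5 : z = (g l0 * ↑u⁻¹) * x + (↑u⁻¹ : S) * (z * f l0 - x * g l0) := by
      rw [← hu']
      have : (↑u⁻¹ : S) * (z * ↑u) = z := by
        rw [mul_comm z, ← mul_assoc, Units.inv_mul, one_mul]
      rw [mul_sub, this]
      ring
    rw [h5]
    refine Ideal.add_mem _ (Ideal.mem_sup_left ?_) (Ideal.mem_sup_right ?_)
    · exact Ideal.mul_mem_left _ _ (Ideal.mem_span_singleton_self x)
    · exact Ideal.mul_mem_left _ _ h4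

/-- if `n ^ a` is in `m S` then it is in `m n` -/
theorem pow_le_mul [Module.Flat R S] [IsLocalHom (algebraMap R S)]
    (hF : ∀ x ∈ maximalIdeal S, ¬ maximalIdeal S ≤
      Ideal.span {x} ⊔ (maximalIdeal R).map (algebraMap R S))
    (a : ℕ) (hn : maximalIdeal S ^ (a + 1) ≤ (maximalIdeal R).map (algebraMap R S)) :
    maximalIdeal S ^ (a + 1) ≤ (maximalIdeal R).map (algebraMap R S) * maximalIdeal S := by
  rw [pow_succ']
  refine Ideal.mul_le.mpr ?_
  intro x hx y hy
  refine soc_mem hF y ?_ x hx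
  intro z hz
  apply hn
  rw [pow_succ']
  exact Ideal.mul_mem_mul hz hy

theorem pow_le_pow [Module.Flat R S] [IsLocalHom (algebraMap R S)]
    (hF : ∀ x ∈ maximalIdeal S, ¬ maximalIdeal S ≤
      Ideal.span {x} ⊔ (maximalIdeal R).map (algebraMap R S))
    (a : ℕ) (hn : maximalIdeal S ^ (a + 1) ≤ (maximalIdeal R).map (algebraMap R S)) (t : ℕ) :
    maximalIdeal S ^ (a * t + 1) ≤
      ((maximalIdeal R) ^ t).map (algebraMap R S) * maximalIdeal S := by
  rw [Ideal.map_pow]
  induction t with
  | zero => simp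
  | succ t ih =>
    have h1 : a * (t + 1) + 1 = a + (a * t + 1) := by ring
    rw [h1, pow_add]
    calc maximalIdeal S ^ a * maximalIdeal S ^ (a * t + 1)
        ≤ maximalIdeal S ^ a *
          ((maximalIdeal R).map (algebraMap R S) ^ t * maximalIdeal S) := Ideal.mul_mono_right ih
      _ = (maximalIdeal R).map (algebraMap R S) ^ t * maximalIdeal S ^ (a + 1) := by ring
      _ ≤ (maximalIdeal R).map (algebraMap R S) ^ t *
          ((maximalIdeal R).map (algebraMap R S) * maximalIdeal S) :=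
          Ideal.mul_mono_right (pow_le_mul hF a hn)
      _ = (maximalIdeal R).map (algebraMap R S) ^ (t + 1) * maximalIdeal S := by ring

theorem pow_le_map [Module.Flat R S] [IsLocalHom (algebraMap R S)]
    (hF : ∀ x ∈ maximalIdeal S, ¬ maximalIdeal S ≤
      Ideal.span {x} ⊔ (maximalIdeal R).map (algebraMap R S))
    (a : ℕ) (hn : maximalIdeal S ^ (a + 1) ≤ (maximalIdeal R).map (algebraMap R S)) (t : ℕ) :
    maximalIdeal S ^ (a * t + 1) ≤ ((maximalIdeal R) ^ t).map (algebraMap R S) :=
  (pow_le_pow hF a hn t).trans Ideal.mul_le_left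

end Vale.Agent.P202
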