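import Vale.Agent.P202.Final
import Vale.Agent.P202.Soc

namespace Vale.Agent.P202

open Filter Topology IsLocalRing TensorProduct

theorem limit_lin {r a : ℕ} {X Y : ℝ}
    (h : ∀ t : ℕ, 1 ≤ t → (t : ℝ) ^ r * X ≤ ((a * t + 1 : ℕ) : ℝ) ^ r * Y) :
    X ≤ (a : ℝ) ^ r * Y := by
  have h1 : Tendsto (fun t : ℕ => ((a : ℝ) + 1 / (t : ℝ)) ^ r * Y) atTop
      (𝓝 (((a : ℝ) + 0) ^ r * Y)) :=
    ((tendsto_one_div_atTop_nhds_zero_nat.const_add (a : ℝ)).pow r).mul_const Y
  rw [add_zero] at h1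
  refine ge_of_tendsto h1 ?_
  filter_upwards [eventually_ge_atTop 1] with t ht
  have ht0 : (0 : ℝ) < t := by exact_mod_cast ht
  have h2 := h t ht
  have h3 : ((a * t + 1 : ℕ) : ℝ) = (t : ℝ) * ((a : ℝ) + 1 / t) := by
    push_cast; field_simp
  rw [h3, mul_pow, mul_assoc] at h2
  exact le_of_mul_le_mul_left h2 (by positivity)

section
variable {R S : Type*} [CommRing R] [CommRing S] [IsLocalRing R] [IsLocalRing S]
  [IsNoetherianRing R] [IsNoetherianRing S] [Algebra R S] [IsLocalHom (algebraMap R S)]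
  [Module.Flat R S]

theorem map_le : (maximalIdeal R).map (algebraMap R S) ≤ maximalIdeal S :=
  le_maximalIdeal (map_lt_top (R := R) (S := S)).ne

theorem upper {d : ℕ} {eR eS : ℝ} (hR : IsMultiplicity R d eR) (hS : IsMultiplicity S d eS)
    (l : ℕ) (hl : Module.length S (S ⧸ (maximalIdeal R).map (algebraMap R S)) = (l : ℕ∞)) :
    eS ≤ l * eR := by
  have l1 := hR.2.const_mul (l : ℝ)
  refine le_of_tendsto_of_tendsto' hS.2 l1 fun t => ?_
  have h1 : Module.length S (S ⧸ maximalIdeal S ^ t) ≤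
      Module.length S (S ⧸ (maximalIdeal R ^ t).map (algebraMap R S)) := by
    rw [Module.length_quotient, Module.length_quotient]
    refine Order.coheight_anti ?_
    rw [Ideal.map_pow]
    exact Ideal.pow_right_mono (map_le (R := R) (S := S)) t
  rw [length_map, hl] at h1
  have f1 : Module.length S (S ⧸ maximalIdeal S ^ t) ≠ ⊤ := length_ne_top _ _ le_rfl
  have f2 : Module.length R (R ⧸ maximalIdeal R ^ t) ≠ ⊤ := length_ne_top _ _ le_rfl
  have h2 : hs S t ≤ hs R t * l := by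
    unfold hs
    obtain ⟨x, hx⟩ := ENat.ne_top_iff_exists.mp f1
    obtain ⟨y, hy⟩ := ENat.ne_top_iff_exists.mp f2
    rw [← hx, ← hy] at h1 ⊢
    simp only [ENat.toNat_natCast]
    exact_mod_cast h1
  calc (d.factorial : ℝ) * hs S t / (t : ℝ) ^ d
      ≤ (d.factorial : ℝ) * (hs R t * l) / (t : ℝ) ^ d := by gcongr
    _ = l * ((d.factorial : ℝ) * hs R t / (t : ℝ) ^ d) := by ring

theorem socle_bound {d : ℕ} {eR eS : ℝ} (hR : IsMultiplicity R d eR)
    (hS : IsMultiplicity S d eS)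
    (l : ℕ) (hl : Module.length S (S ⧸ (maximalIdeal R).map (algebraMap R S)) = (l : ℕ∞))
    (hF : ∀ x ∈ maximalIdeal S, ¬ maximalIdeal S ≤
      Ideal.span {x} ⊔ (maximalIdeal R).map (algebraMap R S))
    (a : ℕ) (hn : maximalIdeal S ^ (a + 1) ≤ (maximalIdeal R).map (algebraMap R S)) :
    (l : ℝ) * eR ≤ (a : ℝ) ^ d * eS := by
  refine limit_lin fun t ht => ?_
  have := key hR hS l (a * t + 1) t hl ht (pow_le_map hF a hn t)
  rwa [mul_assoc] at this

theorem socle_bound_quot (L : List R) (hL : ∀ y ∈ L, y ∈ maximalIdeal R)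
    [IsLocalRing (S ⧸ (Ideal.ofList L).map (algebraMap R S))] {r : ℕ} {eR eT : ℝ}
    (hR : IsMultiplicity R (r + L.length) eR)
    (hT : IsMultiplicity (S ⧸ (Ideal.ofList L).map (algebraMap R S)) r eT)
    (l : ℕ) (hl : Module.length S (S ⧸ (maximalIdeal R).map (algebraMap R S)) = (l : ℕ∞))
    (hF : ∀ x ∈ maximalIdeal S, ¬ maximalIdeal S ≤
      Ideal.span {x} ⊔ (maximalIdeal R).map (algebraMap R S))
    (a : ℕ) (hn : maximalIdeal S ^ (a + 1) ≤ (maximalIdeal R).map (algebraMap R S)) :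
    (l : ℝ) * eR ≤ (a : ℝ) ^ r * eT := by
  refine limit_lin fun t ht => ?_
  have := key_quot L hL hR hT l (a * t + 1) t hl ht ((pow_le_map hF a hn t).trans le_sup_left)
  rwa [mul_assoc] at this

theorem two_le {b : ℕ}
    (hF : ∀ x ∈ maximalIdeal S, ¬ maximalIdeal S ≤
      Ideal.span {x} ⊔ (maximalIdeal R).map (algebraMap R S))
    (hb1 : 1 ≤ b) (hb : maximalIdeal S ^ b ≤ (maximalIdeal R).map (algebraMap R S)) :
    2 ≤ b := by
  by_contra hcon
  have : b = 1 := by omega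
  subst this
  rw [pow_one] at hb
  exact hF 0 (Ideal.zero_mem _) (hb.trans le_sup_right)

end

end Vale.Agent.P202
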