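import Mathlib

namespace Vale.Agent.P202

open Filter Topology IsLocalRing TensorProduct

/-- The length of `A / m_A ^ N` over `A`, as a real number.  (For a Noetherian local ring this
length is finite, so nothing is lost by `toNat`; see `length_ne_top`.) -/
noncomputable def hs (A : Type*) [CommRing A] [IsLocalRing A] (N : ℕ) : ℝ :=
  ((Module.length A (A ⧸ maximalIdeal A ^ N)).toNat : ℝ)

/-- `e` is the Hilbert-Samuel multiplicity of the local ring `A`, which has Krull dimension `d`. -/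
def IsMultiplicity (A : Type*) [CommRing A] [IsLocalRing A] (d : ℕ) (e : ℝ) : Prop :=
  ringKrullDim A = d ∧
    Tendsto (fun N : ℕ => (d.factorial : ℝ) * hs A N / (N : ℝ) ^ d) atTop (𝓝 e)

theorem length_ne_top {A : Type*} [CommRing A] [IsLocalRing A] [IsNoetherianRing A]
    (I : Ideal A) (N : ℕ) (h : maximalIdeal A ^ N ≤ I) : Module.length A (A ⧸ I) ≠ ⊤ := by
  by_cases hI : I = ⊤
  · have : Subsingleton (A ⧸ I) := Ideal.Quotient.subsingleton_iff.mpr hI
    rw [Module.length_eq_zero]; simp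
  · have hmin : maximalIdeal A ∈ I.minimalPrimes := by
      refine ⟨⟨inferInstance, le_maximalIdeal hI⟩, ?_⟩
      rintro q ⟨hq, hIq⟩ _
      exact Ideal.IsPrime.le_of_pow_le (h.trans hIq)
    have h1 : IsArtinianRing (A ⧸ I) :=
      IsLocalRing.quotient_artinian_of_mem_minimalPrimes_of_isLocalRing I hmin
    have h2 : IsArtinian A (A ⧸ I) :=
      isArtinian_of_surjective_algebraMap (Ideal.Quotient.mk_surjective (I := I))
    exact Module.length_ne_top

section
variable {R S : Type*} [CommRing R] [CommRing S] [IsLocalRing R] [IsLocalRing S]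
  [IsNoetherianRing R] [IsNoetherianRing S] [Algebra R S] [IsLocalHom (algebraMap R S)]
  [Module.Flat R S]

theorem length_map (t : ℕ) :
    Module.length S (S ⧸ (maximalIdeal R ^ t).map (algebraMap R S)) =
      Module.length R (R ⧸ maximalIdeal R ^ t) *
        Module.length S (S ⧸ (maximalIdeal R).map (algebraMap R S)) := by
  rw [(Algebra.TensorProduct.quotIdealMapEquivTensorQuot S (maximalIdeal R ^ t)).toLinearEquiv.length_eq]
  exact IsLocalRing.length_baseChange R S (R ⧸ maximalIdeal R ^ t)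

theorem hs_le (l k p : ℕ)
    (hl : Module.length S (S ⧸ (maximalIdeal R).map (algebraMap R S)) = (l : ℕ∞))
    (h : maximalIdeal S ^ k ≤ (maximalIdeal R ^ p).map (algebraMap R S)) (t : ℕ) :
    hs R (p * t) * l ≤ hs S (k * t) := by
  have h1 : maximalIdeal S ^ (k * t) ≤ (maximalIdeal R ^ (p * t)).map (algebraMap R S) := by
    rw [pow_mul, pow_mul, Ideal.map_pow]
    exact Ideal.pow_right_mono h t
  have h2 : Module.length S (S ⧸ (maximalIdeal R ^ (p * t)).map (algebraMap R S)) ≤
      Module.length S (S ⧸ maximalIdeal S ^ (k * t)) := by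
    rw [Module.length_quotient, Module.length_quotient]
    exact Order.coheight_anti h1
  rw [length_map, hl] at h2
  have f1 : Module.length S (S ⧸ maximalIdeal S ^ (k * t)) ≠ ⊤ := length_ne_top _ _ le_rfl
  have f2 : Module.length R (R ⧸ maximalIdeal R ^ (p * t)) ≠ ⊤ := length_ne_top _ _ le_rfl
  unfold hs
  obtain ⟨x, hx⟩ := ENat.ne_top_iff_exists.mp f1
  obtain ⟨y, hy⟩ := ENat.ne_top_iff_exists.mp f2
  rw [← hx, ← hy] at h2 ⊢
  simp only [ENat.toNat_natCast]
  exact_mod_cast h2

theorem map_lt_top : (maximalIdeal R).map (algebraMap R S) < ⊤ :=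
  (map_maximalIdeal_lt_top (algebraMap R S))

theorem key {d : ℕ} {eR eS : ℝ} (hR : IsMultiplicity R d eR) (hS : IsMultiplicity S d eS)
    (l k p : ℕ) (hl : Module.length S (S ⧸ (maximalIdeal R).map (algebraMap R S)) = (l : ℕ∞))
    (hp : 1 ≤ p) (h : maximalIdeal S ^ k ≤ (maximalIdeal R ^ p).map (algebraMap R S)) :
    (p : ℝ) ^ d * l * eR ≤ (k : ℝ) ^ d * eS := by
  have hk : 1 ≤ k := by
    by_contra hk
    have hk0 : k = 0 := by omega
    subst hk0
    have h1 : (maximalIdeal R ^ p).map (algebraMap R S) ≤ (maximalIdeal R).map (algebraMap R S) :=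
      Ideal.map_mono (Ideal.pow_le_self (by omega))
    have h2 := h.trans h1
    rw [pow_zero, Ideal.one_eq_top] at h2
    exact absurd (top_le_iff.mp h2) (map_lt_top (R := R) (S := S)).ne
  have tp : Tendsto (fun t : ℕ => p * t) atTop atTop :=
    tendsto_id.const_mul_atTop' (by omega)
  have tk : Tendsto (fun t : ℕ => k * t) atTop atTop :=
    tendsto_id.const_mul_atTop' (by omega)
  have l1 := (hR.2.comp tp).const_mul ((p : ℝ) ^ d * l)
  have l2 := (hS.2.comp tk).const_mul ((k : ℝ) ^ d)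
  refine le_of_tendsto_of_tendsto l1 l2 ?_
  filter_upwards [eventually_ge_atTop 1] with t ht
  have hle := hs_le (R := R) (S := S) l k p hl h t
  simp only [Function.comp]
  have hp0 : (p : ℝ) ≠ 0 := by positivity
  have hk0 : (k : ℝ) ≠ 0 := by positivity
  have ht0 : (0 : ℝ) < t := by positivity
  push_cast
  have e1 : (p : ℝ) ^ d * l * ((d.factorial : ℝ) * hs R (p * t) / ((p : ℝ) * t) ^ d) =
      (d.factorial : ℝ) * (hs R (p * t) * l) / (t : ℝ) ^ d := by
    rw [mul_pow]; field_simp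
  have e2 : (k : ℝ) ^ d * ((d.factorial : ℝ) * hs S (k * t) / ((k : ℝ) * t) ^ d) =
      (d.factorial : ℝ) * hs S (k * t) / (t : ℝ) ^ d := by
    rw [mul_pow]; field_simp
  rw [e1, e2]
  gcongr

omit [IsNoetherianRing R] [IsNoetherianRing S] [Algebra R S] [IsLocalHom (algebraMap R S)]
  [Module.Flat R S] in
theorem mult_nonneg {d : ℕ} {eS : ℝ} (hS : IsMultiplicity S d eS) : 0 ≤ eS := by
  refine ge_of_tendsto' hS.2 fun N => ?_
  unfold hs
  positivity

theorem limit_form {d : ℕ} {eR eS : ℝ} (hR : IsMultiplicity R d eR) (hS : IsMultiplicity S d eS)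
    (l : ℕ) (hl : Module.length S (S ⧸ (maximalIdeal R).map (algebraMap R S)) = (l : ℕ∞))
    (α : ℝ) (hα : 0 ≤ α) (h : ∀ ε : ℝ, 0 < ε → ∃ k p : ℕ, 1 ≤ p ∧ (k : ℝ) ≤ (α + ε) * p ∧
      maximalIdeal S ^ k ≤ (maximalIdeal R ^ p).map (algebraMap R S)) :
    (l : ℝ) * eR ≤ α ^ d * eS := by
  have hS0 := mult_nonneg hS
  have hlim : Tendsto (fun ε : ℝ => (α + ε) ^ d * eS) (𝓝[>] 0) (𝓝 ((α + 0) ^ d * eS)) := by
    have : Continuous (fun ε : ℝ => (α + ε) ^ d * eS) := by fun_prop
    exact (this.tendsto 0).mono_left nhdsWithin_le_nhds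
  rw [add_zero] at hlim
  refine ge_of_tendsto hlim ?_
  filter_upwards [self_mem_nhdsWithin] with ε hε
  obtain ⟨k, p, hp, hkp, hle⟩ := h ε hε
  have hk := key hR hS l k p hl hp hle
  have hp0 : (0 : ℝ) < (p : ℝ) ^ d := by positivity
  have h1 : (k : ℝ) ^ d * eS ≤ ((α + ε) * p) ^ d * eS := by gcongr
  rw [mul_pow] at h1
  have h2 : (p : ℝ) ^ d * (l * eR) ≤ (p : ℝ) ^ d * ((α + ε) ^ d * eS) := by nlinarith
  exact le_of_mul_le_mul_left h2 hp0

theorem loewy_le (a : ℕ) (hmin : ∀ i < a, ¬ maximalIdeal S ^ i ≤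
    (maximalIdeal R).map (algebraMap R S)) :
    ∀ j ≤ a, (j : ℕ∞) ≤
      Order.coheight (maximalIdeal S ^ j ⊔ (maximalIdeal R).map (algebraMap R S)) := by
  intro j
  induction j with
  | zero => intro _; simp
  | succ j ih =>
    intro hj
    have h1 := ih (by omega)
    have hlt : maximalIdeal S ^ (j + 1) ⊔ (maximalIdeal R).map (algebraMap R S) <
        maximalIdeal S ^ j ⊔ (maximalIdeal R).map (algebraMap R S) := by
      refine lt_of_le_of_ne (sup_le_sup_right (Ideal.pow_le_pow_right (by omega)) _) fun heq => ?_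
      refine hmin j (by omega) ?_
      have h3 : maximalIdeal S ^ j ≤
          (maximalIdeal R).map (algebraMap R S) ⊔ maximalIdeal S • maximalIdeal S ^ j := by
        have h4 : maximalIdeal S ^ j ≤ maximalIdeal S ^ (j + 1) ⊔
            (maximalIdeal R).map (algebraMap R S) := by rw [heq]; exact le_sup_left
        rwa [sup_comm, pow_succ'] at h4
      exact Submodule.le_of_le_smul_of_le_jacobson_bot (IsNoetherian.noetherian _)
        (maximalIdeal_le_jacobson _) h3
    have h5 := Order.coheight_add_one_le hlt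
    calc ((j + 1 : ℕ) : ℕ∞) = (j : ℕ∞) + 1 := by push_cast; rfl
      _ ≤ _ := by gcongr
      _ ≤ _ := h5

theorem power_form {d : ℕ} {eR eS : ℝ} (hR : IsMultiplicity R d eR) (hS : IsMultiplicity S d eS)
    (hd : 1 ≤ d)
    (l : ℕ) (hl : Module.length S (S ⧸ (maximalIdeal R).map (algebraMap R S)) = (l : ℕ∞)) :
    ∃ b : ℕ, 1 ≤ b ∧ b ≤ l ∧ maximalIdeal S ^ b ≤ (maximalIdeal R).map (algebraMap R S) ∧
      (∀ a : ℕ, maximalIdeal S ^ a ≤ (maximalIdeal R).map (algebraMap R S) → b ≤ a) ∧
      eR ≤ (b : ℝ) ^ (d - 1) * eS := by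
  classical
  have hex : ∃ a : ℕ, maximalIdeal S ^ a ≤ (maximalIdeal R).map (algebraMap R S) := by
    have hf : IsFiniteLength S (S ⧸ (maximalIdeal R).map (algebraMap R S)) := by
      rw [← Module.length_ne_top_iff, hl]; simp
    rw [isFiniteLength_iff_isNoetherian_isArtinian] at hf
    have h2 := hf.2
    have h3 : IsArtinianRing (S ⧸ (maximalIdeal R).map (algebraMap R S)) :=
      isArtinian_of_tower S h2
    exact IsLocalRing.exists_maximalIdeal_pow_le_of_isArtinianRing_quotient _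
  have hb1 : 1 ≤ Nat.find hex := by
    rw [Nat.one_le_iff_ne_zero]
    intro h0
    have := Nat.find_spec hex
    rw [h0, pow_zero, Ideal.one_eq_top] at this
    exact absurd (top_le_iff.mp this) (map_lt_top (R := R) (S := S)).ne
  have hbl : Nat.find hex ≤ l := by
    have h1 := loewy_le (R := R) (S := S) (Nat.find hex) (fun i hi => Nat.find_min hex hi) _ le_rfl
    rw [sup_eq_right.mpr (Nat.find_spec hex), ← Module.length_quotient, hl] at h1
    exact_mod_cast h1
  refine ⟨Nat.find hex, hb1, hbl, Nat.find_spec hex, fun a ha => Nat.find_min' hex ha, ?_⟩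
  have hk := key hR hS l (Nat.find hex) 1 hl le_rfl (by simpa using Nat.find_spec hex)
  have hR0 := mult_nonneg hR
  generalize Nat.find hex = b at *
  have hb0 : (0 : ℝ) < b := by exact_mod_cast hb1
  have h2 : (b : ℝ) * eR ≤ l * eR := by gcongr
  have h3 : (b : ℝ) ^ d = b * (b : ℝ) ^ (d - 1) := by
    rw [← pow_succ']; congr 1; omega
  rw [h3] at hk
  have h4 : (b : ℝ) * eR ≤ (b : ℝ) * ((b : ℝ) ^ (d - 1) * eS) := by
    calc (b : ℝ) * eR ≤ l * eR := h2
      _ = ((1 : ℕ) : ℝ) ^ d * l * eR := by simp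
      _ ≤ _ := hk
      _ = _ := by ring
  exact le_of_mul_le_mul_left h4 hb0

end

end Vale.Agent.P202
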