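import Vale.Agent.P202.Main

namespace Vale.Agent.P202

open Filter Topology IsLocalRing TensorProduct

/-- Eventual upper bound by a multiple of the binomial polynomial of degree `r`. -/
def AB (f : ℕ → ℝ) (r : ℕ) (c : ℝ) : Prop :=
  ∀ ε : ℝ, 0 < ε → ∀ᶠ N : ℕ in atTop, f N ≤ (c + ε) * ((N + r).choose r : ℝ)

theorem choose_ge (r : ℕ) : ∀ N : ℕ, N + 1 ≤ (N + (r + 1)).choose (r + 1) := by
  intro N
  induction N with
  | zero => simp
  | succ N ih =>
    have h1 : N + 1 + (r + 1) = (N + (r + 1)) + 1 := by ring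
    rw [h1, Nat.choose_succ_succ']
    have h2 : 1 ≤ (N + (r + 1)).choose r := Nat.choose_pos (by omega)
    omega

theorem AB.succ {f g : ℕ → ℝ} {r : ℕ} {c : ℝ} (hc : 0 ≤ c)
    (h : ∀ N, f (N + 1) ≤ g (N + 1) + f N) (hg : AB g r c) : AB f (r + 1) c := by
  intro ε hε
  obtain ⟨M, hM⟩ := eventually_atTop.mp (hg (ε / 2) (by positivity))
  have h1 : ∀ N, M ≤ N → f N ≤ f M + (c + ε / 2) * ((N + (r + 1)).choose (r + 1) : ℝ) := by
    intro N hN
    induction N, hN using Nat.le_induction with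
    | base =>
      have : 0 ≤ (c + ε / 2) * ((M + (r + 1)).choose (r + 1) : ℝ) := by positivity
      linarith
    | succ N hN ih =>
      have h2 := hM (N + 1) (by omega)
      have h3 := h N
      have h4 : ((N + 1 + (r + 1)).choose (r + 1) : ℝ) =
          ((N + 1 + r).choose r : ℝ) + ((N + (r + 1)).choose (r + 1) : ℝ) := by
        have e1 : N + 1 + (r + 1) = (N + (r + 1)) + 1 := by ring
        have e2 : N + 1 + r = N + (r + 1) := by ring
        rw [e1, Nat.choose_succ_succ, e2]; push_cast; ring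
      rw [h4]
      nlinarith
  obtain ⟨K, hK⟩ := exists_nat_gt (f M / (ε / 2))
  filter_upwards [eventually_ge_atTop M, eventually_ge_atTop K] with N hN hNK
  have h2 := h1 N hN
  have h3 : f M ≤ ε / 2 * ((N + (r + 1)).choose (r + 1) : ℝ) := by
    have h5 : (N + 1 : ℝ) ≤ ((N + (r + 1)).choose (r + 1) : ℝ) := by exact_mod_cast choose_ge r N
    have h6 : f M < ε / 2 * K := by
      rw [div_lt_iff₀ (by positivity)] at hK; linarith
    have h7 : (K : ℝ) ≤ N := by exact_mod_cast hNK
    nlinarith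
  nlinarith

theorem AB.mult_le {A : Type*} [CommRing A] [IsLocalRing A] {d : ℕ} {e c : ℝ}
    (hA : IsMultiplicity A d e) (hc : 0 ≤ c) (h : AB (hs A) d c) : e ≤ c := by
  refine le_of_forall_pos_le_add fun ε hε => ?_
  have h1 : Tendsto (fun N : ℕ => (c + ε) * (1 + (d : ℝ) / N) ^ d) atTop
      (𝓝 ((c + ε) * (1 + 0) ^ d)) := by
    have : Tendsto (fun N : ℕ => (d : ℝ) / N) atTop (𝓝 0) := tendsto_const_div_atTop_nhds_zero_nat _
    exact ((this.const_add 1).pow d).const_mul _
  rw [add_zero, one_pow, mul_one] at h1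
  refine le_of_tendsto_of_tendsto hA.2 h1 ?_
  filter_upwards [h ε hε, eventually_ge_atTop 1] with N hN hN1
  have hN0 : (0 : ℝ) < N := by exact_mod_cast hN1
  have h2 : ((N + d).choose d : ℝ) ≤ ((N + d : ℕ) : ℝ) ^ d / d.factorial := by
    exact_mod_cast Nat.choose_le_pow_div (α := ℝ) d (N + d)
  have h3 : hs A N ≤ (c + ε) * (((N + d : ℕ) : ℝ) ^ d / d.factorial) :=
    hN.trans (by gcongr)
  have hf : (0 : ℝ) < d.factorial := by exact_mod_cast d.factorial_pos
  calc (d.factorial : ℝ) * hs A N / (N : ℝ) ^ d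
      ≤ (d.factorial : ℝ) * ((c + ε) * (((N + d : ℕ) : ℝ) ^ d / d.factorial)) / (N : ℝ) ^ d := by
        gcongr
    _ = (c + ε) * (((N + d : ℕ) : ℝ) / N) ^ d := by rw [div_pow]; field_simp
    _ = (c + ε) * (1 + (d : ℝ) / N) ^ d := by
        congr 2; push_cast; field_simp

/-- Length of `A / (m ^ N + Y)`. -/
noncomputable def hsq {A : Type*} [CommRing A] [IsLocalRing A] (Y : Ideal A) (N : ℕ) : ℝ :=
  ((Module.length A (A ⧸ (maximalIdeal A ^ N ⊔ Y))).toNat : ℝ)

theorem length_step {A : Type*} [CommRing A] (I' I'' : Ideal A) (y : A)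
    (h : ∀ x ∈ I'', x * y ∈ I') :
    Module.length A (A ⧸ I') ≤
      Module.length A (A ⧸ (I' ⊔ Ideal.span {y})) + Module.length A (A ⧸ I'') := by
  let φ : A →ₗ[A] (A ⧸ I') := LinearMap.toSpanSingleton A (A ⧸ I') (Submodule.mkQ I' y)
  have h1 : Module.length A (A ⧸ I') = Module.length A (LinearMap.range φ) +
      Module.length A ((A ⧸ I') ⧸ LinearMap.range φ) :=
    Module.length_eq_add_of_exact (LinearMap.range φ).subtype (LinearMap.range φ).mkQ
      (Submodule.subtype_injective _) (Submodule.mkQ_surjective _)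
      (LinearMap.exact_subtype_mkQ _)
  have h2 : Module.length A (LinearMap.range φ) ≤ Module.length A (A ⧸ I'') := by
    have hker : I'' ≤ LinearMap.ker φ.rangeRestrict := by
      intro x hx
      rw [LinearMap.ker_rangeRestrict, LinearMap.mem_ker]
      change x • (Submodule.mkQ I' y) = 0
      rw [← map_smul, Submodule.mkQ_apply, Submodule.Quotient.mk_eq_zero]
      simpa using h x hx
    refine Module.length_le_of_surjective (Submodule.liftQ I'' φ.rangeRestrict hker) ?_
    intro z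
    obtain ⟨x, hx⟩ := φ.surjective_rangeRestrict z
    exact ⟨Submodule.mkQ I'' x, by rw [← hx]; exact Submodule.liftQ_apply _ _ _⟩
  have h3 : Module.length A ((A ⧸ I') ⧸ LinearMap.range φ) ≤
      Module.length A (A ⧸ (I' ⊔ Ideal.span {y})) := by
    have hker : (I' ⊔ Ideal.span {y}) ≤
        LinearMap.ker ((LinearMap.range φ).mkQ ∘ₗ Submodule.mkQ I') := by
      refine sup_le ?_ ?_
      · intro x hx
        rw [LinearMap.mem_ker, LinearMap.comp_apply]
        have : Submodule.mkQ I' x = 0 := by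
          rw [Submodule.mkQ_apply, Submodule.Quotient.mk_eq_zero]; exact hx
        rw [this, map_zero]
      · rw [Ideal.span_le]
        intro x hx
        rw [Set.mem_singleton_iff] at hx
        subst hx
        rw [SetLike.mem_coe, LinearMap.mem_ker, LinearMap.comp_apply, Submodule.mkQ_apply,
          Submodule.Quotient.mk_eq_zero]
        exact ⟨1, by simp [φ]⟩
    refine Module.length_le_of_surjective (Submodule.liftQ (I' ⊔ Ideal.span {y}) _ hker) ?_
    intro z
    obtain ⟨w, rfl⟩ := Submodule.mkQ_surjective _ z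
    obtain ⟨x, rfl⟩ := Submodule.mkQ_surjective _ w
    exact ⟨Submodule.mkQ _ x, Submodule.liftQ_apply _ _ _⟩
  rw [h1, add_comm]
  gcongr

theorem hsq_step {A : Type*} [CommRing A] [IsLocalRing A] [IsNoetherianRing A] (Y : Ideal A)
    (y : A) (hy : y ∈ maximalIdeal A) (N : ℕ) :
    hsq Y (N + 1) ≤ hsq (Y ⊔ Ideal.span {y}) (N + 1) + hsq Y N := by
  have h1 := length_step (maximalIdeal A ^ (N + 1) ⊔ Y) (maximalIdeal A ^ N ⊔ Y) y (by
    intro x hx
    obtain ⟨u, hu, v, hv, rfl⟩ := Submodule.mem_sup.mp hx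
    rw [add_mul]
    refine Submodule.add_mem_sup ?_ (Y.mul_mem_right _ hv)
    rw [pow_succ]
    exact Ideal.mul_mem_mul hu hy)
  rw [sup_assoc] at h1
  unfold hsq
  have f1 := length_ne_top (maximalIdeal A ^ (N + 1) ⊔ Y) (N + 1) le_sup_left
  have f2 := length_ne_top (maximalIdeal A ^ N ⊔ Y) N le_sup_left
  have f3 := length_ne_top (maximalIdeal A ^ (N + 1) ⊔ (Y ⊔ Ideal.span {y})) (N + 1) le_sup_left
  obtain ⟨a, ha⟩ := ENat.ne_top_iff_exists.mp f1
  obtain ⟨b, hb⟩ := ENat.ne_top_iff_exists.mp f2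
  obtain ⟨c, hc⟩ := ENat.ne_top_iff_exists.mp f3
  rw [← ha, ← hb, ← hc] at h1 ⊢
  simp only [ENat.toNat_natCast]
  exact_mod_cast h1

theorem AB.list {A : Type*} [CommRing A] [IsLocalRing A] [IsNoetherianRing A] {c : ℝ}
    (hc : 0 ≤ c) {r : ℕ} : ∀ (L : List A) (_ : ∀ y ∈ L, y ∈ maximalIdeal A) (Y : Ideal A),
    AB (hsq (Y ⊔ Ideal.ofList L)) r c → AB (hsq Y) (r + L.length) c := by
  intro L
  induction L with
  | nil => intro _ Y h; simpa using h
  | cons y L ih =>
    intro hL Y h
    have h1 : AB (hsq ((Y ⊔ Ideal.span {y}) ⊔ Ideal.ofList L)) r c := by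
      rw [sup_assoc, ← Ideal.ofList_cons]; exact h
    have h2 := ih (fun z hz => hL z (List.mem_cons_of_mem _ hz)) (Y ⊔ Ideal.span {y}) h1
    have h3 := AB.succ hc (fun N => hsq_step Y y (hL y List.mem_cons_self) N) h2
    simpa [List.length_cons, add_assoc] using h3

section
variable {R S : Type*} [CommRing R] [CommRing S] [IsLocalRing R] [IsLocalRing S]
  [IsNoetherianRing R] [IsNoetherianRing S] [Algebra R S] [IsLocalHom (algebraMap R S)]
  [Module.Flat R S]

/-- Length over `S` of `(S/J) / m_{S/J}^N` is the length over `S/J`. -/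
theorem length_quot (J : Ideal S) [IsLocalRing (S ⧸ J)] (N : ℕ) :
    Module.length (S ⧸ J) ((S ⧸ J) ⧸ maximalIdeal (S ⧸ J) ^ N) =
      Module.length S (S ⧸ (maximalIdeal S ^ N ⊔ J)) := by
  have hmax : maximalIdeal (S ⧸ J) = (maximalIdeal S).map (Ideal.Quotient.mk J) := by
    have h1 : (maximalIdeal (S ⧸ J)).comap (Ideal.Quotient.mk J) = maximalIdeal S :=
      IsLocalRing.eq_maximalIdeal
        (Ideal.comap_isMaximal_of_surjective _ Ideal.Quotient.mk_surjective)
    rw [← h1, Ideal.map_comap_of_surjective _ Ideal.Quotient.mk_surjective]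
  rw [← Module.length_eq_of_surjective (S := S) (R := S ⧸ J) Ideal.Quotient.mk_surjective]
  rw [hmax, ← Ideal.map_pow, sup_comm]
  exact (DoubleQuot.quotQuotEquivQuotSupₐ S J (maximalIdeal S ^ N)).toLinearEquiv.length_eq

theorem length_map_sup (Y : Ideal R) (t : ℕ) :
    Module.length S (S ⧸ ((maximalIdeal R ^ t ⊔ Y).map (algebraMap R S))) =
      Module.length R (R ⧸ (maximalIdeal R ^ t ⊔ Y)) *
        Module.length S (S ⧸ (maximalIdeal R).map (algebraMap R S)) := by
  rw [(Algebra.TensorProduct.quotIdealMapEquivTensorQuot S (maximalIdeal R ^ t ⊔ Y)).toLinearEquiv.length_eq]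
  exact IsLocalRing.length_baseChange R S (R ⧸ (maximalIdeal R ^ t ⊔ Y))

theorem sup_pow_le (I J : Ideal S) (t : ℕ) : (I ⊔ J) ^ t ≤ I ^ t ⊔ J := by
  induction t with
  | zero => simp
  | succ t ih =>
    rw [pow_succ]
    refine (Ideal.mul_mono_left ih).trans ?_
    rw [Ideal.sup_mul, Ideal.mul_sup]
    have e1 : I ^ t * J ≤ J := Ideal.mul_le_right
    have e2 : J * (I ⊔ J) ≤ J := Ideal.mul_le_left
    exact sup_le (sup_le le_sup_left (e1.trans le_sup_right)) (e2.trans le_sup_right)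

theorem hsq_le (Y : Ideal R) [IsLocalRing (S ⧸ Y.map (algebraMap R S))] (l k p : ℕ)
    (hl : Module.length S (S ⧸ (maximalIdeal R).map (algebraMap R S)) = (l : ℕ∞))
    (h : maximalIdeal S ^ k ≤ (maximalIdeal R ^ p).map (algebraMap R S) ⊔
      Y.map (algebraMap R S)) (t N : ℕ) (hN : N ≤ p * t) :
    hsq Y N * l ≤ hs (S ⧸ Y.map (algebraMap R S)) (k * t) := by
  set J := Y.map (algebraMap R S) with hJ
  have h1 : maximalIdeal S ^ (k * t) ≤ (maximalIdeal R ^ N ⊔ Y).map (algebraMap R S) := by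
    rw [pow_mul, Ideal.map_sup]
    refine (Ideal.pow_right_mono h t).trans ((sup_pow_le _ _ t).trans ?_)
    refine sup_le_sup_right ?_ _
    rw [← Ideal.map_pow, ← pow_mul]
    exact Ideal.map_mono (Ideal.pow_le_pow_right hN)
  have h1' : maximalIdeal S ^ (k * t) ⊔ J ≤ (maximalIdeal R ^ N ⊔ Y).map (algebraMap R S) :=
    sup_le h1 (Ideal.map_mono le_sup_right)
  have h2 : Module.length S (S ⧸ ((maximalIdeal R ^ N ⊔ Y).map (algebraMap R S))) ≤
      Module.length S (S ⧸ (maximalIdeal S ^ (k * t) ⊔ J)) := by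
    rw [Module.length_quotient, Module.length_quotient]
    exact Order.coheight_anti h1'
  rw [length_map_sup, hl, ← length_quot (S := S) J (k * t)] at h2
  have f1 : Module.length (S ⧸ J) ((S ⧸ J) ⧸ maximalIdeal (S ⧸ J) ^ (k * t)) ≠ ⊤ :=
    length_ne_top _ _ le_rfl
  have f2 : Module.length R (R ⧸ (maximalIdeal R ^ N ⊔ Y)) ≠ ⊤ :=
    length_ne_top _ N le_sup_left
  unfold hs hsq
  obtain ⟨x, hx⟩ := ENat.ne_top_iff_exists.mp f1
  obtain ⟨y, hy⟩ := ENat.ne_top_iff_exists.mp f2
  rw [← hx, ← hy] at h2 ⊢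
  simp only [ENat.toNat_natCast]
  exact_mod_cast h2

theorem key_quot (L : List R) (hL : ∀ y ∈ L, y ∈ maximalIdeal R)
    [IsLocalRing (S ⧸ (Ideal.ofList L).map (algebraMap R S))] {r : ℕ} {eR eT : ℝ}
    (hR : IsMultiplicity R (r + L.length) eR)
    (hT : IsMultiplicity (S ⧸ (Ideal.ofList L).map (algebraMap R S)) r eT)
    (l k p : ℕ) (hl : Module.length S (S ⧸ (maximalIdeal R).map (algebraMap R S)) = (l : ℕ∞))
    (hp : 1 ≤ p) (h : maximalIdeal S ^ k ≤ (maximalIdeal R ^ p).map (algebraMap R S) ⊔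
      (Ideal.ofList L).map (algebraMap R S)) :
    (p : ℝ) ^ r * l * eR ≤ (k : ℝ) ^ r * eT := by
  have hYm : (Ideal.ofList L).map (algebraMap R S) ≤ (maximalIdeal R).map (algebraMap R S) :=
    Ideal.map_mono (Ideal.span_le.mpr hL)
  have hk : 1 ≤ k := by
    by_contra hk
    have hk0 : k = 0 := by omega
    subst hk0
    have h1 : (maximalIdeal R ^ p).map (algebraMap R S) ≤ (maximalIdeal R).map (algebraMap R S) :=
      Ideal.map_mono (Ideal.pow_le_self (by omega))
    have h2 := h.trans (sup_le h1 hYm)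
    rw [pow_zero, Ideal.one_eq_top] at h2
    exact absurd (top_le_iff.mp h2) (map_lt_top (R := R) (S := S)).ne
  have hl0 : 0 < l := by
    rw [Nat.pos_iff_ne_zero]
    rintro rfl
    rw [Nat.cast_zero, Module.length_eq_zero_iff, Ideal.Quotient.subsingleton_iff] at hl
    exact absurd hl (map_lt_top (R := R) (S := S)).ne
  have heT := mult_nonneg hT
  have hp0 : (0 : ℝ) < p := by exact_mod_cast hp
  have hk0 : (0 : ℝ) < k := by exact_mod_cast hk
  have hl0' : (0 : ℝ) < l := by exact_mod_cast hl0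
  have hf : (0 : ℝ) < r.factorial := by exact_mod_cast r.factorial_pos
  set T := S ⧸ (Ideal.ofList L).map (algebraMap R S) with hTdef
  set c : ℝ := ((k : ℝ) / p) ^ r * eT / l with hc
  have hc0 : 0 ≤ c := by positivity
  have hAB : AB (hsq (⊥ ⊔ Ideal.ofList L)) r c := by
    rw [bot_sup_eq]
    intro ε hε
    -- the sequence M N = k * (N / p + 1)
    have hMt : Tendsto (fun N : ℕ => k * (N / p + 1)) atTop atTop := by
      refine tendsto_atTop_mono (f := fun N : ℕ => N / p) (fun N => ?_)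
        (Nat.tendsto_div_const_atTop (by omega))
      nlinarith [Nat.zero_le (N / p)]
    have h1 := hT.2.comp hMt
    have h2 : Tendsto (fun N : ℕ => (((N : ℝ) + p) / (N + 1)) ^ r) atTop (𝓝 (1 ^ r)) := by
      refine Tendsto.pow ?_ r
      have h3 : Tendsto (fun N : ℕ => 1 + ((p : ℝ) - 1) / ((N : ℝ) + 1)) atTop (𝓝 (1 + 0)) := by
        refine Tendsto.const_add 1 ?_
        exact Tendsto.div_atTop tendsto_const_nhds
          (tendsto_atTop_add_const_right _ _ tendsto_natCast_atTop_atTop)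
      rw [add_zero] at h3
      refine h3.congr fun N => ?_
      have : (N : ℝ) + 1 ≠ 0 := by positivity
      field_simp
      ring
    rw [one_pow] at h2
    have h4 := ((h1.mul h2).const_mul (((k : ℝ) / p) ^ r / l))
    have h5 : ((k : ℝ) / p) ^ r / l * (eT * 1) = c := by rw [hc]; ring
    rw [h5] at h4
    have h6 := h4.eventually (gt_mem_nhds (show c < c + ε by linarith))
    filter_upwards [h6] with N hN
    have h7 := hsq_le (S := S) (Ideal.ofList L) l k p hl h (N / p + 1) N (by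
      have := Nat.lt_mul_div_succ N (show 0 < p by omega)
      omega)
    have h8 : (((N : ℝ) + 1) ^ r) / r.factorial ≤ ((N + r).choose r : ℝ) := by
      have := Nat.pow_le_choose (α := ℝ) r (N + r)
      have e : N + r + 1 - r = N + 1 := by omega
      rw [e] at this
      exact_mod_cast this
    set M : ℕ := k * (N / p + 1) with hM
    have hM0 : 0 < (M : ℝ) := by
      have : 0 < M := Nat.mul_pos (by omega) (Nat.succ_pos _)
      exact_mod_cast this
    have hMle : (M : ℝ) ≤ (k : ℝ) / p * (N + p) := by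
      have h9 : ((N / p : ℕ) : ℝ) ≤ (N : ℝ) / p := Nat.cast_div_le
      rw [hM]; push_cast
      have : (k : ℝ) / p * (N + p) = k * ((N : ℝ) / p + 1) := by field_simp
      rw [this]
      gcongr
    have h10 : hs T M = (r.factorial : ℝ) * hs T M / (M : ℝ) ^ r * ((M : ℝ) ^ r / r.factorial) := by
      field_simp
    have hX0 : 0 ≤ (r.factorial : ℝ) * hs T M / (M : ℝ) ^ r := by
      unfold hs; positivity
    have h11 : hs T M ≤ (r.factorial : ℝ) * hs T M / (M : ℝ) ^ r *
        (((k : ℝ) / p * (N + p)) ^ r / r.factorial) := by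
      conv_lhs => rw [h10]
      gcongr
    have h12 : hsq (Ideal.ofList L) N ≤ (r.factorial : ℝ) * hs T M / (M : ℝ) ^ r *
        (((k : ℝ) / p * (N + p)) ^ r / r.factorial) / l := by
      rw [le_div_iff₀ hl0']
      exact h7.trans h11
    simp only [Function.comp] at hN
    calc hsq (Ideal.ofList L) N ≤ _ := h12
      _ = (((k : ℝ) / p) ^ r / l * ((r.factorial : ℝ) * hs T M / (M : ℝ) ^ r *
            (((N : ℝ) + p) / (N + 1)) ^ r)) * (((N : ℝ) + 1) ^ r / r.factorial) := by
          rw [mul_pow, div_pow ((N : ℝ) + p)]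
          have : (N : ℝ) + 1 ≠ 0 := by positivity
          field_simp
      _ ≤ (c + ε) * ((N + r).choose r : ℝ) := by
          refine mul_le_mul hN.le h8 (by positivity) (by positivity)
  have h1 := AB.list hc0 L hL ⊥ hAB
  have h2 : (hsq (⊥ : Ideal R)) = hs R := by
    funext N; unfold hsq hs; rw [sup_bot_eq]
  rw [h2] at h1
  have h3 := AB.mult_le hR hc0 h1
  rw [hc, div_pow] at h3
  have h4 : eR * (l * (p : ℝ) ^ r) ≤ (k : ℝ) ^ r * eT := by
    have h5 : (k : ℝ) ^ r / (p : ℝ) ^ r * eT / l = ((k : ℝ) ^ r * eT) / (l * (p : ℝ) ^ r) := by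
      field_simp
    rw [h5, le_div_iff₀ (by positivity)] at h3
    exact h3
  linarith

end

end Vale.Agent.P202
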