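import Vale.Agent.P202.Final
import Vale.Agent.P202.Soc

/-! Multiplicities and the socle of the closed fibre. -/

namespace Vale.Agent.P202

open Filter Topology IsLocalRing TensorProduct

section
variable {R S : Type*} [CommRing R] [CommRing S] [IsLocalRing R] [IsLocalRing S]
  [IsNoetherianRing R] [IsNoetherianRing S] [Algebra R S] [IsLocalHom (algebraMap R S)]
  [Module.Flat R S]

omit [IsLocalHom (algebraMap R S)] [IsNoetherianRing R] [Module.Flat R S] in
/-- a principal maximal ideal in the fibre gives length at most the Loewy length -/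
theorem length_le_of_principal (x : S) (hx : x ∈ maximalIdeal S)
    (h : maximalIdeal S ≤ Ideal.span {x} ⊔ (maximalIdeal R).map (algebraMap R S)) (j : ℕ) :
    Module.length S (S ⧸ (maximalIdeal S ^ j ⊔ (maximalIdeal R).map (algebraMap R S))) ≤
      (j : ℕ∞) := by
  induction j with
  | zero =>
    have : Subsingleton (S ⧸ (maximalIdeal S ^ 0 ⊔ (maximalIdeal R).map (algebraMap R S))) := by
      rw [Ideal.Quotient.subsingleton_iff]
      simp
    rw [Module.length_eq_zero]
    simp
  | succ j ih =>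
    have h1 := length_step (maximalIdeal S ^ (j + 1) ⊔ (maximalIdeal R).map (algebraMap R S))
      (maximalIdeal S) (x ^ j) (by
        intro z hz
        refine Ideal.mem_sup_left ?_
        rw [pow_succ']
        exact Ideal.mul_mem_mul hz (Ideal.pow_mem_pow hx j))
    have h2 : maximalIdeal S ^ j ⊔ (maximalIdeal R).map (algebraMap R S) ≤
        (maximalIdeal S ^ (j + 1) ⊔ (maximalIdeal R).map (algebraMap R S)) ⊔
          Ideal.span {x ^ j} := by
      refine sup_le ?_ (le_sup_right.trans le_sup_left)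
      refine (Ideal.pow_right_mono h j).trans ((sup_pow_le _ _ j).trans ?_)
      rw [Ideal.span_singleton_pow]
      exact sup_le le_sup_right (le_sup_right.trans le_sup_left)
    have h3 : Module.length S (S ⧸ ((maximalIdeal S ^ (j + 1) ⊔
        (maximalIdeal R).map (algebraMap R S)) ⊔ Ideal.span {x ^ j})) ≤
        Module.length S (S ⧸ (maximalIdeal S ^ j ⊔ (maximalIdeal R).map (algebraMap R S))) := by
      rw [Module.length_quotient, Module.length_quotient]
      exact Order.coheight_anti h2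
    have h4 : Module.length S (S ⧸ maximalIdeal S) = 1 := by
      rw [Module.length_eq_one_iff]
      exact isSimpleModule_iff_isCoatom.mpr (Ideal.isMaximal_def.mp inferInstance)
    rw [h4] at h1
    calc _ ≤ _ := h1
      _ ≤ (j : ℕ∞) + 1 := by gcongr; exact h3.trans ih
      _ = ((j + 1 : ℕ) : ℕ∞) := by push_cast; rfl

/-- the upper bound `e(S) ≤ l e(R)` -/
theorem mult_le {d : ℕ} {eR eS : ℝ} (hR : IsMultiplicity R d eR) (hS : IsMultiplicity S d eS)
    (l : ℕ) (hl : Module.length S (S ⧸ (maximalIdeal R).map (algebraMap R S)) = (l : ℕ∞)) :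
    eS ≤ l * eR := by
  have l1 := hR.2.const_mul (l : ℝ)
  refine le_of_tendsto_of_tendsto' hS.2 l1 fun N => ?_
  have h1 : (maximalIdeal R ^ N).map (algebraMap R S) ≤ maximalIdeal S ^ N := by
    rw [Ideal.map_pow]
    exact Ideal.pow_right_mono (le_maximalIdeal (map_lt_top (R := R) (S := S)).ne) N
  have h2 : Module.length S (S ⧸ maximalIdeal S ^ N) ≤
      Module.length S (S ⧸ (maximalIdeal R ^ N).map (algebraMap R S)) := by
    rw [Module.length_quotient, Module.length_quotient]
    exact Order.coheight_anti h1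
  rw [length_map, hl] at h2
  have f1 : Module.length S (S ⧸ maximalIdeal S ^ N) ≠ ⊤ := length_ne_top _ _ le_rfl
  have f2 : Module.length R (R ⧸ maximalIdeal R ^ N) ≠ ⊤ := length_ne_top _ _ le_rfl
  have h3 : hs S N ≤ hs R N * l := by
    unfold hs
    obtain ⟨x, hx⟩ := ENat.ne_top_iff_exists.mp f1
    obtain ⟨y, hy⟩ := ENat.ne_top_iff_exists.mp f2
    rw [← hx, ← hy] at h2 ⊢
    simp only [ENat.toNat_natCast]
    exact_mod_cast h2
  calc (d.factorial : ℝ) * hs S N / (N : ℝ) ^ d
      ≤ (d.factorial : ℝ) * (hs R N * l) / (N : ℝ) ^ d := by gcongr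
    _ = l * ((d.factorial : ℝ) * hs R N / (N : ℝ) ^ d) := by ring

/-- the improved inequality -/
theorem soc_mult {d : ℕ} {eR eS : ℝ} (hR : IsMultiplicity R d eR) (hS : IsMultiplicity S d eS)
    (l : ℕ) (hl : Module.length S (S ⧸ (maximalIdeal R).map (algebraMap R S)) = (l : ℕ∞))
    (hF : ∀ x ∈ maximalIdeal S, ¬ maximalIdeal S ≤
      Ideal.span {x} ⊔ (maximalIdeal R).map (algebraMap R S))
    (a : ℕ) (hn : maximalIdeal S ^ (a + 1) ≤ (maximalIdeal R).map (algebraMap R S)) :
    (l : ℝ) * eR ≤ (a : ℝ) ^ d * eS := by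
  refine limit_form hR hS l hl a (by positivity) fun ε hε => ?_
  obtain ⟨t, ht⟩ := exists_nat_gt (1 / ε)
  have ht0 : (0 : ℝ) < t := lt_trans (by positivity) ht
  refine ⟨a * t + 1, t, by exact_mod_cast ht0, ?_, pow_le_map hF a hn t⟩
  push_cast
  rw [div_lt_iff₀ hε] at ht
  nlinarith

/-- the version modulo elements of `m` -/
theorem soc_quot (L : List R) (hL : ∀ y ∈ L, y ∈ maximalIdeal R)
    [IsLocalRing (S ⧸ (Ideal.ofList L).map (algebraMap R S))] {r : ℕ} {eR eT : ℝ}
    (hR : IsMultiplicity R (r + L.length) eR)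
    (hT : IsMultiplicity (S ⧸ (Ideal.ofList L).map (algebraMap R S)) r eT)
    (l : ℕ) (hl : Module.length S (S ⧸ (maximalIdeal R).map (algebraMap R S)) = (l : ℕ∞))
    (hF : ∀ x ∈ maximalIdeal S, ¬ maximalIdeal S ≤
      Ideal.span {x} ⊔ (maximalIdeal R).map (algebraMap R S))
    (a : ℕ) (hn : maximalIdeal S ^ (a + 1) ≤ (maximalIdeal R).map (algebraMap R S)) :
    (l : ℝ) * eR ≤ (a : ℝ) ^ r * eT := by
  have h1 : Tendsto (fun t : ℕ => ((a : ℝ) + 1 / t) ^ r * eT) atTop (𝓝 (((a : ℝ) + 0) ^ r * eT)) :=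
    (((tendsto_one_div_atTop_nhds_zero_nat).const_add (a : ℝ)).pow r).mul_const _
  rw [add_zero] at h1
  refine ge_of_tendsto h1 ?_
  filter_upwards [eventually_ge_atTop 1] with t ht
  have ht0 : (0 : ℝ) < t := by exact_mod_cast ht
  have h2 := key_quot (S := S) L hL hR hT l (a * t + 1) t hl ht
    ((pow_le_map hF a hn t).trans le_sup_left)
  have h3 : (((a * t + 1 : ℕ)) : ℝ) = t * ((a : ℝ) + 1 / t) := by
    push_cast
    field_simp
  rw [h3, mul_pow] at h2
  have htr : (0 : ℝ) < (t : ℝ) ^ r := by positivity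
  have h4 : (t : ℝ) ^ r * (l * eR) ≤ (t : ℝ) ^ r * (((a : ℝ) + 1 / t) ^ r * eT) := by
    calc (t : ℝ) ^ r * (l * eR) = (t : ℝ) ^ r * l * eR := by ring
      _ ≤ _ := h2
      _ = _ := by ring
  exact le_of_mul_le_mul_left h4 htr

end

end Vale.Agent.P202
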